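import Mathlib.Analysis.Matrix.Spectrum
import Mathlib.Analysis.Matrix.PosDef
import Mathlib.Analysis.SpecialFunctions.Log.NegMulLog
import Mathlib.LinearAlgebra.Matrix.Kronecker
import Mathlib.LinearAlgebra.Matrix.Charpoly.Basic

set_option linter.unusedSectionVars false

open Finset Matrix
open scoped Kronecker

namespace Vale.Agent.P356

section numeric

variable {n κ : Type} [Fintype n] [Fintype κ]

/-- The numerical core of Klein's inequality. -/
theorem klein_numeric (p : n → ℝ) (T : n → κ → ℝ) (w : κ → ℝ)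
    (hp : ∀ i, 0 ≤ p i) (hp1 : ∑ i, p i = 1)
    (hT : ∀ i k, 0 ≤ T i k) (hrow : ∀ i, ∑ k, T i k = 1) (hcol : ∀ k, ∑ i, T i k = 1)
    (hw : ∀ k, 0 ≤ w k) (hw1 : ∑ k, w k ≤ 1)
    (hsupp : ∀ k, w k = 0 → ∑ i, p i * T i k = 0) :
    ∑ i, Real.negMulLog (p i) ≤ - ∑ k, (∑ i, p i * T i k) * Real.log (w k) := by
  have key : ∀ i k, p i * T i k * (Real.log (w k) - Real.log (p i)) ≤ T i k * w k - p i * T i k := by
    intro i k
    by_cases hzero : p i * T i k = 0
    · rw [hzero]
      have := mul_nonneg (hT i k) (hw k)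
      simpa using this
    · have hpi : 0 < p i := lt_of_le_of_ne (hp i) (fun h => hzero (by rw [← h]; ring))
      have hTik : 0 < T i k := lt_of_le_of_ne (hT i k) (fun h => hzero (by rw [← h]; ring))
      have hwk : 0 < w k := by
        refine lt_of_le_of_ne (hw k) (fun h => ?_)
        have h1 := hsupp k h.symm
        have h2 : ∀ j ∈ (univ : Finset n), 0 ≤ p j * T j k :=
          fun j _ => mul_nonneg (hp j) (hT j k)
        have h3 := (Finset.sum_eq_zero_iff_of_nonneg h2).1 h1 i (mem_univ i)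
        exact hzero h3
      have h1 : Real.log (w k / p i) ≤ w k / p i - 1 :=
        Real.log_le_sub_one_of_pos (div_pos hwk hpi)
      rw [Real.log_div hwk.ne' hpi.ne'] at h1
      have h2 : 0 < p i * T i k := mul_pos hpi hTik
      have h3 := mul_le_mul_of_nonneg_left h1 h2.le
      calc p i * T i k * (Real.log (w k) - Real.log (p i))
          ≤ p i * T i k * (w k / p i - 1) := h3
        _ = T i k * w k - p i * T i k := by
            field_simp
  have hsum := Finset.sum_le_sum (fun i (_ : i ∈ (univ : Finset n)) =>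
    Finset.sum_le_sum (fun k (_ : k ∈ (univ : Finset κ)) => key i k))
  have hL : ∑ i, ∑ k, p i * T i k * (Real.log (w k) - Real.log (p i))
      = ∑ k, (∑ i, p i * T i k) * Real.log (w k) + ∑ i, Real.negMulLog (p i) := by
    have h1 : ∀ i k, p i * T i k * (Real.log (w k) - Real.log (p i))
        = p i * T i k * Real.log (w k) + (- (p i * Real.log (p i))) * T i k := by
      intro i k; ring
    simp_rw [h1, Finset.sum_add_distrib, ← Finset.mul_sum, hrow, mul_one]
    congr 1
    · rw [Finset.sum_comm]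
      simp_rw [Finset.sum_mul]
    · simp [Real.negMulLog]
  have hR : ∑ i, ∑ k, (T i k * w k - p i * T i k) = ∑ k, w k - 1 := by
    simp_rw [Finset.sum_sub_distrib, ← Finset.mul_sum, hrow, mul_one, hp1]
    rw [Finset.sum_comm]
    simp_rw [← Finset.sum_mul, hcol, one_mul]
  rw [hL, hR] at hsum
  linarith

end numeric

variable {n : Type} [Fintype n] [DecidableEq n]

lemma unitary_row (W : Matrix n n ℂ) (hW : W ∈ unitaryGroup n ℂ) (i : n) :
    ∑ k, ‖W i k‖ ^ 2 = 1 := by
  have h := congrFun (congrFun (mem_unitaryGroup_iff.1 hW) i) i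
  simp only [Matrix.mul_apply, Matrix.star_apply, Matrix.one_apply_eq] at h
  have h2 : ∀ k, W i k * star (W i k) = ((‖W i k‖ ^ 2 : ℝ) : ℂ) := by
    intro k
    rw [Complex.star_def, Complex.mul_conj, Complex.normSq_eq_norm_sq]
  simp_rw [h2] at h
  exact_mod_cast h

lemma unitary_col (W : Matrix n n ℂ) (hW : W ∈ unitaryGroup n ℂ) (k : n) :
    ∑ i, ‖W i k‖ ^ 2 = 1 := by
  have h := congrFun (congrFun (mem_unitaryGroup_iff'.1 hW) k) k
  simp only [Matrix.mul_apply, Matrix.star_apply, Matrix.one_apply_eq] at h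
  have h2 : ∀ i, star (W i k) * W i k = ((‖W i k‖ ^ 2 : ℝ) : ℂ) := by
    intro i
    rw [Complex.star_def, mul_comm, Complex.mul_conj, Complex.normSq_eq_norm_sq]
  simp_rw [h2] at h
  exact_mod_cast h

lemma conj_diag_apply (W : Matrix n n ℂ) (p : n → ℝ) (k : n) :
    (star W * diagonal (fun i => (p i : ℂ)) * W) k k = ((∑ i, p i * ‖W i k‖ ^ 2 : ℝ) : ℂ) := by
  rw [Matrix.mul_apply]
  simp_rw [Matrix.mul_diagonal, Matrix.star_apply]
  push_cast
  refine Finset.sum_congr rfl (fun i _ => ?_)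
  have h2 : star (W i k) * W i k = ((‖W i k‖ ^ 2 : ℝ) : ℂ) := by
    rw [Complex.star_def, mul_comm, Complex.mul_conj, Complex.normSq_eq_norm_sq]
  push_cast at h2
  rw [← h2]
  ring

/-- The diagonal of `V* ρ V` in terms of the eigenvalues of `ρ`. -/
lemma diag_conj_eq {ρ : Matrix n n ℂ} (hρ : ρ.IsHermitian) (V : Matrix n n ℂ) (k : n) :
    (star V * ρ * V) k k =
      ((∑ i, hρ.eigenvalues i *
        ‖(star (hρ.eigenvectorUnitary : Matrix n n ℂ) * V) i k‖ ^ 2 : ℝ) : ℂ) := by
  set U : Matrix n n ℂ := (hρ.eigenvectorUnitary : Matrix n n ℂ) with hU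
  have hs : ρ = U * diagonal (fun i => (hρ.eigenvalues i : ℂ)) * star U := by
    have := hρ.spectral_theorem
    rw [Unitary.conjStarAlgAut_apply] at this
    exact this
  have : star V * ρ * V = star (star U * V) * diagonal (fun i => (hρ.eigenvalues i : ℂ)) * (star U * V) := by
    conv_lhs => rw [hs]
    simp only [star_mul, star_star, Matrix.mul_assoc]
  rw [this, conj_diag_apply]

/-- Klein's inequality in the form used below. -/
theorem klein_unitary {ρ : Matrix n n ℂ} (hρ : ρ.IsHermitian)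
    (hpos : ∀ i, 0 ≤ hρ.eigenvalues i) (hsum : ∑ i, hρ.eigenvalues i = 1)
    (V : Matrix n n ℂ) (hV : V ∈ unitaryGroup n ℂ) (w : n → ℝ)
    (hw : ∀ k, 0 ≤ w k) (hw1 : ∑ k, w k ≤ 1)
    (hsupp : ∀ k, w k = 0 → ((star V * ρ * V) k k).re = 0) :
    ∑ i, Real.negMulLog (hρ.eigenvalues i) ≤
      - ∑ k, ((star V * ρ * V) k k).re * Real.log (w k) := by
  set U : Matrix n n ℂ := (hρ.eigenvectorUnitary : Matrix n n ℂ) with hU
  have hUmem : star U ∈ unitaryGroup n ℂ := by
    have : U ∈ unitaryGroup n ℂ := hρ.eigenvectorUnitary.2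
    exact Unitary.star_mem this
  have hW : star U * V ∈ unitaryGroup n ℂ := mul_mem hUmem hV
  have hd : ∀ k, ((star V * ρ * V) k k).re = ∑ i, hρ.eigenvalues i * ‖(star U * V) i k‖ ^ 2 := by
    intro k
    rw [diag_conj_eq hρ V k, Complex.ofReal_re]
  simp_rw [hd] at hsupp ⊢
  exact klein_numeric (hρ.eigenvalues) (fun i k => ‖(star U * V) i k‖ ^ 2) w hpos hsum
    (fun i k => by positivity) (fun i => unitary_row _ hW i) (fun k => unitary_col _ hW k)
    hw hw1 hsupp

/-- The diagonal of `V* ρ V` is nonnegative. -/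
lemma diag_conj_nonneg {ρ : Matrix n n ℂ} (hρ : ρ.IsHermitian)
    (hpos : ∀ i, 0 ≤ hρ.eigenvalues i) (V : Matrix n n ℂ) (k : n) :
    0 ≤ ((star V * ρ * V) k k).re := by
  rw [diag_conj_eq hρ V k, Complex.ofReal_re]
  exact Finset.sum_nonneg (fun i _ => mul_nonneg (hpos i) (by positivity))

/-- The diagonal of `V* ρ V` sums to one. -/
lemma diag_conj_sum {ρ : Matrix n n ℂ} (hρ : ρ.IsHermitian)
    (hsum : ∑ i, hρ.eigenvalues i = 1) (V : Matrix n n ℂ) (hV : V ∈ unitaryGroup n ℂ) :
    ∑ k, ((star V * ρ * V) k k).re = 1 := by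
  set U : Matrix n n ℂ := (hρ.eigenvectorUnitary : Matrix n n ℂ) with hU
  have hUmem : star U ∈ unitaryGroup n ℂ := by
    have : U ∈ unitaryGroup n ℂ := hρ.eigenvectorUnitary.2
    exact Unitary.star_mem this
  have hW : star U * V ∈ unitaryGroup n ℂ := mul_mem hUmem hV
  have hd : ∀ k, ((star V * ρ * V) k k).re = ∑ i, hρ.eigenvalues i * ‖(star U * V) i k‖ ^ 2 := by
    intro k
    rw [diag_conj_eq hρ V k, Complex.ofReal_re]
  simp_rw [hd]
  rw [Finset.sum_comm]
  simp_rw [← Finset.mul_sum, unitary_row _ hW, mul_one, hsum]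

/-- The entropy of a density matrix is at most the logarithm of the dimension. -/
theorem entropy_le_log_card {ρ : Matrix n n ℂ} (hρ : ρ.IsHermitian)
    (hpos : ∀ i, 0 ≤ hρ.eigenvalues i) (hsum : ∑ i, hρ.eigenvalues i = 1) :
    ∑ i, Real.negMulLog (hρ.eigenvalues i) ≤ Real.log (Fintype.card n) := by
  have hne : Nonempty n := by
    by_contra hne
    rw [not_nonempty_iff] at hne
    simp at hsum
  have hc : (0 : ℝ) < Fintype.card n := by exact_mod_cast Fintype.card_pos
  have h := klein_unitary hρ hpos hsum 1 (one_mem _) (fun _ => (Fintype.card n : ℝ)⁻¹)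
    (fun _ => by positivity) (by simp [hc.ne']) (fun k hk => absurd hk (by positivity))
  have h2 := diag_conj_sum hρ hsum 1 (one_mem _)
  simp only [Real.log_inv, ← Finset.sum_mul, h2] at h
  simpa using h

/-- Gibbs' variational principle, with an inverse temperature and an energy shift. -/
theorem gibbs {ρ K : Matrix n n ℂ} (hρ : ρ.IsHermitian)
    (hpos : ∀ i, 0 ≤ hρ.eigenvalues i) (hsum : ∑ i, hρ.eigenvalues i = 1)
    (hK : K.IsHermitian) (β y : ℝ) :
    ∑ i, Real.negMulLog (hρ.eigenvalues i) ≤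
      β * (((ρ * K).trace).re - y) + Real.log (∑ j, Real.exp (- (β * (hK.eigenvalues j - y)))) := by
  classical
  have hne : Nonempty n := by
    by_contra hne
    rw [not_nonempty_iff] at hne
    simp at hsum
  set V : Matrix n n ℂ := (hK.eigenvectorUnitary : Matrix n n ℂ) with hVdef
  have hV : V ∈ unitaryGroup n ℂ := hK.eigenvectorUnitary.2
  set Z : ℝ := ∑ j, Real.exp (- (β * (hK.eigenvalues j - y))) with hZ
  have hZpos : 0 < Z := Finset.sum_pos (fun j _ => Real.exp_pos _) Finset.univ_nonempty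
  have h := klein_unitary hρ hpos hsum V hV (fun j => Real.exp (- (β * (hK.eigenvalues j - y))) / Z)
    (fun j => (div_pos (Real.exp_pos _) hZpos).le)
    (by rw [← Finset.sum_div, div_self hZpos.ne'])
    (fun k hk => absurd hk (div_pos (Real.exp_pos _) hZpos).ne')
  have hlog : ∀ j, Real.log (Real.exp (- (β * (hK.eigenvalues j - y))) / Z)
      = - (β * (hK.eigenvalues j - y)) - Real.log Z := by
    intro j
    rw [Real.log_div (Real.exp_pos _).ne' hZpos.ne', Real.log_exp]
  simp_rw [hlog] at h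
  have h2 := diag_conj_sum hρ hsum V hV
  have hK' : K = V * diagonal (fun i => (hK.eigenvalues i : ℂ)) * star V := by
    have := hK.spectral_theorem
    rw [Unitary.conjStarAlgAut_apply] at this
    exact this
  have htr : ((ρ * K).trace).re = ∑ k, ((star V * ρ * V) k k).re * hK.eigenvalues k := by
    have : (ρ * K).trace = (star V * ρ * V * diagonal (fun i => (hK.eigenvalues i : ℂ))).trace := by
      calc (ρ * K).trace
          = (ρ * (V * diagonal (fun i => (hK.eigenvalues i : ℂ)) * star V)).trace := by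
            rw [← hK']
        _ = (ρ * V * diagonal (fun i => (hK.eigenvalues i : ℂ)) * star V).trace := by
            simp only [Matrix.mul_assoc]
        _ = (star V * (ρ * V * diagonal (fun i => (hK.eigenvalues i : ℂ)))).trace := by
            rw [Matrix.trace_mul_comm]
        _ = _ := by simp only [Matrix.mul_assoc]
    rw [this]
    simp only [Matrix.trace, Matrix.diag_apply, Matrix.mul_diagonal, Complex.re_sum]
    refine Finset.sum_congr rfl (fun k _ => ?_)
    simp
  rw [htr]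
  have h3 : - ∑ k, ((star V * ρ * V) k k).re * (- (β * (hK.eigenvalues k - y)) - Real.log Z)
      = β * (∑ k, ((star V * ρ * V) k k).re * hK.eigenvalues k
          - (∑ k, ((star V * ρ * V) k k).re) * y)
        + (∑ k, ((star V * ρ * V) k k).re) * Real.log Z := by
    simp only [Finset.sum_mul, Finset.mul_sum, ← Finset.sum_add_distrib, ← Finset.sum_sub_distrib,
      ← Finset.sum_neg_distrib]
    refine Finset.sum_congr rfl (fun k _ => ?_)
    ring
  rw [h3, h2, one_mul, one_mul] at h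
  exact h

section subadd

variable {α β : Type} [Fintype α] [Fintype β] [DecidableEq α] [DecidableEq β]

/-- The marginal on the first factor. -/
def marg₁ (ρ : Matrix (α × β) (α × β) ℂ) : Matrix α α ℂ := fun a a' => ∑ b, ρ (a, b) (a', b)

/-- The marginal on the second factor. -/
def marg₂ (ρ : Matrix (α × β) (α × β) ℂ) : Matrix β β ℂ := fun b b' => ∑ a, ρ (a, b) (a, b')

lemma conj_apply_eq {m : Type} [Fintype m] (A M : Matrix m m ℂ) (k : m) :
    (star A * M * A) k k = ∑ x, ∑ y, star (A x k) * M x y * A y k := by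
  simp only [Matrix.mul_apply, Matrix.star_apply, Finset.sum_mul]
  rw [Finset.sum_comm]

lemma sum_diag_kron₁ (U₁ : Matrix α α ℂ) (U₂ : Matrix β β ℂ) (hU₂ : U₂ ∈ unitaryGroup β ℂ)
    (ρ : Matrix (α × β) (α × β) ℂ) (j : α) :
    ∑ l, (star (U₁ ⊗ₖ U₂) * ρ * (U₁ ⊗ₖ U₂)) (j, l) (j, l) = (star U₁ * marg₁ ρ * U₁) j j := by
  have hU : ∀ b b', ∑ l, star (U₂ b l) * U₂ b' l = if b' = b then 1 else 0 := by
    intro b b'
    have := congrFun (congrFun (mem_unitaryGroup_iff.1 hU₂) b') b
    simp only [Matrix.mul_apply, Matrix.star_apply] at this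
    rw [Matrix.one_apply] at this
    simp_rw [mul_comm (star (U₂ b _))]
    exact this
  have key : ∀ a a' b, ∑ l, ∑ b', star (U₁ a j * U₂ b l) * ρ (a, b) (a', b') * (U₁ a' j * U₂ b' l)
      = star (U₁ a j) * ρ (a, b) (a', b) * U₁ a' j := by
    intro a a' b
    rw [Finset.sum_comm]
    have : ∀ b', ∑ l, star (U₁ a j * U₂ b l) * ρ (a, b) (a', b') * (U₁ a' j * U₂ b' l)
        = star (U₁ a j) * ρ (a, b) (a', b') * U₁ a' j * (∑ l, star (U₂ b l) * U₂ b' l) := by
      intro b'
      rw [Finset.mul_sum]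
      refine Finset.sum_congr rfl (fun l _ => ?_)
      simp only [star_mul']
      ring
    simp_rw [this, hU]
    simp
  simp_rw [conj_apply_eq, Fintype.sum_prod_type, Matrix.kroneckerMap_apply]
  simp only [marg₁, Finset.mul_sum, Finset.sum_mul]
  calc ∑ l, ∑ a, ∑ b, ∑ a', ∑ b', star (U₁ a j * U₂ b l) * ρ (a, b) (a', b') * (U₁ a' j * U₂ b' l)
      = ∑ a, ∑ b, ∑ a', ∑ l, ∑ b', star (U₁ a j * U₂ b l) * ρ (a, b) (a', b') * (U₁ a' j * U₂ b' l) := by
        rw [Finset.sum_comm]
        refine Finset.sum_congr rfl (fun a _ => ?_)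
        rw [Finset.sum_comm]
        refine Finset.sum_congr rfl (fun b _ => ?_)
        rw [Finset.sum_comm]
    _ = ∑ a, ∑ b, ∑ a', star (U₁ a j) * ρ (a, b) (a', b) * U₁ a' j := by
        simp_rw [key]
    _ = ∑ a, ∑ a', ∑ b, star (U₁ a j) * ρ (a, b) (a', b) * U₁ a' j := by
        refine Finset.sum_congr rfl (fun a _ => ?_)
        rw [Finset.sum_comm]

lemma sum_diag_kron₂ (U₁ : Matrix α α ℂ) (U₂ : Matrix β β ℂ) (hU₁ : U₁ ∈ unitaryGroup α ℂ)
    (ρ : Matrix (α × β) (α × β) ℂ) (l : β) :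
    ∑ j, (star (U₁ ⊗ₖ U₂) * ρ * (U₁ ⊗ₖ U₂)) (j, l) (j, l) = (star U₂ * marg₂ ρ * U₂) l l := by
  have hU : ∀ a a', ∑ j, star (U₁ a j) * U₁ a' j = if a' = a then 1 else 0 := by
    intro a a'
    have := congrFun (congrFun (mem_unitaryGroup_iff.1 hU₁) a') a
    simp only [Matrix.mul_apply, Matrix.star_apply] at this
    rw [Matrix.one_apply] at this
    simp_rw [mul_comm (star (U₁ a _))]
    exact this
  have key : ∀ a b b', ∑ j, ∑ a', star (U₁ a j * U₂ b l) * ρ (a, b) (a', b') * (U₁ a' j * U₂ b' l)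
      = star (U₂ b l) * ρ (a, b) (a, b') * U₂ b' l := by
    intro a b b'
    rw [Finset.sum_comm]
    have : ∀ a', ∑ j, star (U₁ a j * U₂ b l) * ρ (a, b) (a', b') * (U₁ a' j * U₂ b' l)
        = star (U₂ b l) * ρ (a, b) (a', b') * U₂ b' l * (∑ j, star (U₁ a j) * U₁ a' j) := by
      intro a'
      rw [Finset.mul_sum]
      refine Finset.sum_congr rfl (fun j _ => ?_)
      simp only [star_mul']
      ring
    simp_rw [this, hU]
    simp
  simp_rw [conj_apply_eq, Fintype.sum_prod_type, Matrix.kroneckerMap_apply]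
  simp only [marg₂, Finset.mul_sum, Finset.sum_mul]
  calc ∑ j, ∑ a, ∑ b, ∑ a', ∑ b', star (U₁ a j * U₂ b l) * ρ (a, b) (a', b') * (U₁ a' j * U₂ b' l)
      = ∑ a, ∑ b, ∑ b', ∑ j, ∑ a', star (U₁ a j * U₂ b l) * ρ (a, b) (a', b') * (U₁ a' j * U₂ b' l) := by
        rw [Finset.sum_comm]
        refine Finset.sum_congr rfl (fun a _ => ?_)
        rw [Finset.sum_comm]
        refine Finset.sum_congr rfl (fun b _ => ?_)
        rw [Finset.sum_congr rfl (fun j _ => Finset.sum_comm), Finset.sum_comm]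
    _ = ∑ a, ∑ b, ∑ b', star (U₂ b l) * ρ (a, b) (a, b') * U₂ b' l := by
        simp_rw [key]
    _ = ∑ b, ∑ b', ∑ a, star (U₂ b l) * ρ (a, b) (a, b') * U₂ b' l := by
        rw [Finset.sum_comm]
        refine Finset.sum_congr rfl (fun b _ => ?_)
        rw [Finset.sum_comm]

/-- The eigenvalues are the diagonal entries in the eigenbasis. -/
lemma eig_eq_diag {m : Type} [Fintype m] [DecidableEq m] {ρ : Matrix m m ℂ} (hρ : ρ.IsHermitian) (j : m) :
    ((star (hρ.eigenvectorUnitary : Matrix m m ℂ) * ρ * (hρ.eigenvectorUnitary : Matrix m m ℂ)) j j).re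
      = hρ.eigenvalues j := by
  rw [diag_conj_eq hρ _ j, Complex.ofReal_re]
  have h : star (hρ.eigenvectorUnitary : Matrix m m ℂ) * (hρ.eigenvectorUnitary : Matrix m m ℂ) = 1 :=
    mem_unitaryGroup_iff'.1 hρ.eigenvectorUnitary.2
  rw [h]
  rw [Finset.sum_eq_single j]
  · simp
  · intro i _ hij
    simp [hij]
  · intro hj
    exact absurd (mem_univ j) hj

/-- Subadditivity of the von Neumann entropy. -/
theorem subadditivity {ρ : Matrix (α × β) (α × β) ℂ} (hρ : ρ.IsHermitian)
    (hpos : ∀ i, 0 ≤ hρ.eigenvalues i) (hsum : ∑ i, hρ.eigenvalues i = 1)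
    (h₁ : (marg₁ ρ).IsHermitian) (h₂ : (marg₂ ρ).IsHermitian)
    (hpos₁ : ∀ i, 0 ≤ h₁.eigenvalues i) (hpos₂ : ∀ i, 0 ≤ h₂.eigenvalues i) :
    ∑ i, Real.negMulLog (hρ.eigenvalues i) ≤
      ∑ i, Real.negMulLog (h₁.eigenvalues i) + ∑ i, Real.negMulLog (h₂.eigenvalues i) := by
  set U₁ : Matrix α α ℂ := (h₁.eigenvectorUnitary : Matrix α α ℂ) with hU₁def
  set U₂ : Matrix β β ℂ := (h₂.eigenvectorUnitary : Matrix β β ℂ) with hU₂def
  have hU₁ : U₁ ∈ unitaryGroup α ℂ := h₁.eigenvectorUnitary.2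
  have hU₂ : U₂ ∈ unitaryGroup β ℂ := h₂.eigenvectorUnitary.2
  set V : Matrix (α × β) (α × β) ℂ := U₁ ⊗ₖ U₂ with hVdef
  have hV : V ∈ unitaryGroup (α × β) ℂ := by
    rw [mem_unitaryGroup_iff', Matrix.star_eq_conjTranspose, hVdef, Matrix.conjTranspose_kronecker,
      ← Matrix.mul_kronecker_mul]
    rw [← Matrix.star_eq_conjTranspose, ← Matrix.star_eq_conjTranspose,
      mem_unitaryGroup_iff'.1 hU₁, mem_unitaryGroup_iff'.1 hU₂, Matrix.one_kronecker_one]
  set d : α × β → ℝ := fun p => ((star V * ρ * V) p p).re with hd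
  have hd0 : ∀ p, 0 ≤ d p := fun p => diag_conj_nonneg hρ hpos V p
  have hd1 : ∀ j, ∑ l, d (j, l) = h₁.eigenvalues j := by
    intro j
    have h := sum_diag_kron₁ U₁ U₂ hU₂ ρ j
    have h2 := congrArg Complex.re h
    rw [Complex.re_sum] at h2
    rw [eig_eq_diag h₁ j] at h2
    exact h2
  have hd2 : ∀ l, ∑ j, d (j, l) = h₂.eigenvalues l := by
    intro l
    have h := sum_diag_kron₂ U₁ U₂ hU₁ ρ l
    have h2 := congrArg Complex.re h
    rw [Complex.re_sum] at h2
    rw [eig_eq_diag h₂ l] at h2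
    exact h2
  have htot : ∑ p, d p = 1 := diag_conj_sum hρ hsum V hV
  have hs1 : ∑ j, h₁.eigenvalues j = 1 := by
    simp_rw [← hd1]
    rw [← Fintype.sum_prod_type']
    exact htot
  have hs2 : ∑ l, h₂.eigenvalues l = 1 := by
    simp_rw [← hd2]
    rw [Finset.sum_comm, ← Fintype.sum_prod_type']
    exact htot
  have hz1 : ∀ j l, h₁.eigenvalues j = 0 → d (j, l) = 0 := by
    intro j l h0
    have h3 := hd1 j
    rw [h0] at h3
    exact (Finset.sum_eq_zero_iff_of_nonneg (fun l _ => hd0 (j, l))).1 h3 l (mem_univ l)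
  have hz2 : ∀ j l, h₂.eigenvalues l = 0 → d (j, l) = 0 := by
    intro j l h0
    have h3 := hd2 l
    rw [h0] at h3
    exact (Finset.sum_eq_zero_iff_of_nonneg (fun j _ => hd0 (j, l))).1 h3 j (mem_univ j)
  have hk := klein_unitary hρ hpos hsum V hV (fun p => h₁.eigenvalues p.1 * h₂.eigenvalues p.2)
    (fun p => mul_nonneg (hpos₁ _) (hpos₂ _))
    (by
      rw [Fintype.sum_prod_type]
      simp_rw [← Finset.mul_sum, hs2, mul_one, hs1]
      exact le_rfl)
    (by
      rintro ⟨j, l⟩ hw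
      rcases mul_eq_zero.1 hw with h0 | h0
      · exact hz1 j l h0
      · exact hz2 j l h0)
  refine hk.trans (le_of_eq ?_)
  have hterm : ∀ p : α × β, d p * Real.log (h₁.eigenvalues p.1 * h₂.eigenvalues p.2)
      = d p * Real.log (h₁.eigenvalues p.1) + d p * Real.log (h₂.eigenvalues p.2) := by
    rintro ⟨j, l⟩
    by_cases h0 : h₁.eigenvalues j = 0
    · simp [hz1 j l h0]
    by_cases h0' : h₂.eigenvalues l = 0
    · simp [hz2 j l h0']
    · rw [Real.log_mul h0 h0', mul_add]
  show - ∑ p, d p * Real.log (h₁.eigenvalues p.1 * h₂.eigenvalues p.2) = _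
  simp_rw [hterm, Finset.sum_add_distrib]
  have e1 : ∑ p : α × β, d p * Real.log (h₁.eigenvalues p.1)
      = ∑ j, h₁.eigenvalues j * Real.log (h₁.eigenvalues j) := by
    rw [Fintype.sum_prod_type]
    refine Finset.sum_congr rfl (fun j _ => ?_)
    dsimp only
    rw [← Finset.sum_mul, hd1]
  have e2 : ∑ p : α × β, d p * Real.log (h₂.eigenvalues p.2)
      = ∑ l, h₂.eigenvalues l * Real.log (h₂.eigenvalues l) := by
    rw [Fintype.sum_prod_type_right]
    refine Finset.sum_congr rfl (fun l _ => ?_)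
    dsimp only
    rw [← Finset.sum_mul, hd2]
  rw [e1, e2]
  simp only [Real.negMulLog]
  simp_rw [neg_mul, Finset.sum_neg_distrib]
  ring

end subadd

section charpoly

variable {m : Type} [Fintype m] [DecidableEq m]

/-- The sum of `f` over the eigenvalues only depends on the characteristic polynomial. -/
lemma sum_eigenvalues_eq_roots {A : Matrix n n ℂ} (hA : A.IsHermitian) (f : ℝ → ℝ) :
    ∑ i, f (hA.eigenvalues i) = ((A.charpoly.roots).map (fun z => f z.re)).sum := by
  rw [hA.roots_charpoly_eq_eigenvalues, Multiset.map_map]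
  have : ((fun z : ℂ => f z.re) ∘ (RCLike.ofReal ∘ hA.eigenvalues)) = fun i => f (hA.eigenvalues i) := by
    funext i
    simp
  rw [this]
  rfl

lemma sum_eigenvalues_eq_of_charpoly {A : Matrix n n ℂ} {B : Matrix m m ℂ}
    (hA : A.IsHermitian) (hB : B.IsHermitian) (h : A.charpoly = B.charpoly) (f : ℝ → ℝ) :
    ∑ i, f (hA.eigenvalues i) = ∑ i, f (hB.eigenvalues i) := by
  rw [sum_eigenvalues_eq_roots hA, sum_eigenvalues_eq_roots hB, h]

end charpoly

end Vale.Agent.P356
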