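import Vale.Agent.P356.Defs
import Vale.Agent.P356.Entropy

open Finset Matrix

set_option linter.unusedSectionVars false

namespace Vale.Agent.P356

section general

variable {α : Type} [Fintype α]

/-- The quadratic form of a matrix. -/
def qf (M : Matrix α α ℂ) (φ : α → ℂ) : ℂ := ∑ σ, ∑ τ, star (φ σ) * M σ τ * φ τ

/-- The real part of the quadratic form. -/
noncomputable def en (M : Matrix α α ℂ) (φ : α → ℂ) : ℝ := (qf M φ).re

/-- The squared norm. -/
noncomputable def nsq (φ : α → ℂ) : ℝ := ∑ x, ‖φ x‖ ^ 2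

lemma nsq_nonneg (φ : α → ℂ) : 0 ≤ nsq φ := Finset.sum_nonneg (fun _ _ => by positivity)

/-- Lower form bound. -/
def LB (M : Matrix α α ℂ) (a : ℝ) : Prop := ∀ φ, a * nsq φ ≤ en M φ

/-- Upper form bound. -/
def UB (M : Matrix α α ℂ) (b : ℝ) : Prop := ∀ φ, en M φ ≤ b * nsq φ

lemma qf_eq_dotProduct (M : Matrix α α ℂ) (φ : α → ℂ) : qf M φ = star φ ⬝ᵥ (M *ᵥ φ) := by
  simp only [qf, dotProduct, mulVec, Finset.mul_sum, Pi.star_apply]
  refine Finset.sum_congr rfl (fun σ _ => Finset.sum_congr rfl (fun τ _ => ?_))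
  ring

lemma qf_add (M N : Matrix α α ℂ) (φ : α → ℂ) : qf (M + N) φ = qf M φ + qf N φ := by
  simp only [qf, Matrix.add_apply, mul_add, add_mul, Finset.sum_add_distrib]

lemma en_add (M N : Matrix α α ℂ) (φ : α → ℂ) : en (M + N) φ = en M φ + en N φ := by
  simp [en, qf_add]

lemma qf_sum {β : Type} (s : Finset β) (M : β → Matrix α α ℂ) (φ : α → ℂ) :
    qf (∑ b ∈ s, M b) φ = ∑ b ∈ s, qf (M b) φ := by
  classical
  induction s using Finset.induction_on with
  | empty => simp [qf]
  | insert a s ha ih => rw [Finset.sum_insert ha, Finset.sum_insert ha, qf_add, ih]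

lemma en_sum {β : Type} (s : Finset β) (M : β → Matrix α α ℂ) (φ : α → ℂ) :
    en (∑ b ∈ s, M b) φ = ∑ b ∈ s, en (M b) φ := by
  simp [en, qf_sum, Complex.re_sum]

lemma LB_add {M N : Matrix α α ℂ} {a b : ℝ} (hM : LB M a) (hN : LB N b) : LB (M + N) (a + b) := by
  intro φ
  have := hM φ
  have := hN φ
  rw [en_add, add_mul]
  linarith

lemma UB_add {M N : Matrix α α ℂ} {a b : ℝ} (hM : UB M a) (hN : UB N b) : UB (M + N) (a + b) := by
  intro φ
  have := hM φ
  have := hN φ
  rw [en_add, add_mul]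
  linarith

lemma LB_sum {β : Type} (s : Finset β) (M : β → Matrix α α ℂ) (a : β → ℝ)
    (h : ∀ b ∈ s, LB (M b) (a b)) : LB (∑ b ∈ s, M b) (∑ b ∈ s, a b) := by
  intro φ
  rw [en_sum, Finset.sum_mul]
  exact Finset.sum_le_sum (fun b hb => h b hb φ)

lemma UB_sum {β : Type} (s : Finset β) (M : β → Matrix α α ℂ) (a : β → ℝ)
    (h : ∀ b ∈ s, UB (M b) (a b)) : UB (∑ b ∈ s, M b) (∑ b ∈ s, a b) := by
  intro φ
  rw [en_sum, Finset.sum_mul]
  exact Finset.sum_le_sum (fun b hb => h b hb φ)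

lemma nsq_eq_dotProduct (φ : α → ℂ) : nsq φ = (star φ ⬝ᵥ φ).re := by
  simp only [nsq, dotProduct, Pi.star_apply, Complex.re_sum]
  refine Finset.sum_congr rfl (fun x _ => ?_)
  rw [Complex.star_def, mul_comm, Complex.mul_conj, Complex.normSq_eq_norm_sq]
  norm_cast

variable [DecidableEq α]

/-- A unitary preserves the squared norm. -/
lemma nsq_unitary_mulVec (U : Matrix α α ℂ) (hU : U ∈ unitaryGroup α ℂ) (φ : α → ℂ) :
    nsq (star U *ᵥ φ) = nsq φ := by
  rw [nsq_eq_dotProduct, nsq_eq_dotProduct, star_mulVec, ← dotProduct_mulVec,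
    Matrix.star_eq_conjTranspose, Matrix.conjTranspose_conjTranspose, Matrix.mulVec_mulVec,
    ← Matrix.star_eq_conjTranspose, mem_unitaryGroup_iff.1 hU, Matrix.one_mulVec]

/-- Quadratic form in the eigenbasis. -/
lemma en_eigen {A : Matrix α α ℂ} (hA : A.IsHermitian) (φ : α → ℂ) :
    en A φ = ∑ j, hA.eigenvalues j * ‖(star (hA.eigenvectorUnitary : Matrix α α ℂ) *ᵥ φ) j‖ ^ 2 := by
  set U : Matrix α α ℂ := (hA.eigenvectorUnitary : Matrix α α ℂ) with hU
  have hs : A = U * diagonal (fun i => (hA.eigenvalues i : ℂ)) * star U := by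
    have := hA.spectral_theorem
    rw [Unitary.conjStarAlgAut_apply] at this
    exact this
  have h1 : qf A φ = star (star U *ᵥ φ) ⬝ᵥ (diagonal (fun i => (hA.eigenvalues i : ℂ)) *ᵥ (star U *ᵥ φ)) := by
    rw [qf_eq_dotProduct]
    conv_lhs => rw [hs]
    rw [star_mulVec, ← dotProduct_mulVec, Matrix.star_eq_conjTranspose, Matrix.conjTranspose_conjTranspose]
    simp only [Matrix.mulVec_mulVec, Matrix.mul_assoc]
  rw [en, h1]
  simp only [dotProduct, Matrix.mulVec_diagonal, Complex.re_sum, Pi.star_apply]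
  refine Finset.sum_congr rfl (fun j _ => ?_)
  set z := (star U *ᵥ φ) j with hz
  have h2 : star z * ((hA.eigenvalues j : ℂ) * z) = ((hA.eigenvalues j * ‖z‖ ^ 2 : ℝ) : ℂ) := by
    push_cast
    rw [← Complex.conj_mul', Complex.star_def]
    ring
  rw [h2, Complex.ofReal_re]

lemma LB_of_eigen {A : Matrix α α ℂ} (hA : A.IsHermitian) {y : ℝ} (h : ∀ j, y ≤ hA.eigenvalues j) :
    LB A y := by
  intro φ
  have hU : (hA.eigenvectorUnitary : Matrix α α ℂ) ∈ unitaryGroup α ℂ := hA.eigenvectorUnitary.2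
  rw [en_eigen hA, ← nsq_unitary_mulVec _ hU φ, nsq, Finset.mul_sum]
  exact Finset.sum_le_sum (fun j _ => mul_le_mul_of_nonneg_right (h j) (by positivity))

lemma UB_of_eigen {A : Matrix α α ℂ} (hA : A.IsHermitian) {y : ℝ} (h : ∀ j, hA.eigenvalues j ≤ y) :
    UB A y := by
  intro φ
  have hU : (hA.eigenvectorUnitary : Matrix α α ℂ) ∈ unitaryGroup α ℂ := hA.eigenvectorUnitary.2
  rw [en_eigen hA, ← nsq_unitary_mulVec _ hU φ, nsq, Finset.mul_sum]
  exact Finset.sum_le_sum (fun j _ => mul_le_mul_of_nonneg_right (h j) (by positivity))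

/-- Eigenvector norm and energy. -/
lemma eigenvector_facts {A : Matrix α α ℂ} (hA : A.IsHermitian) (j : α) :
    nsq (fun x => (hA.eigenvectorUnitary : Matrix α α ℂ) x j) = 1 ∧
    en A (fun x => (hA.eigenvectorUnitary : Matrix α α ℂ) x j) = hA.eigenvalues j := by
  have hU : (hA.eigenvectorUnitary : Matrix α α ℂ) ∈ unitaryGroup α ℂ := hA.eigenvectorUnitary.2
  constructor
  · exact unitary_col _ hU j
  · have := eig_eq_diag hA j
    rw [← this, en, conj_apply_eq]
    rfl

end general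


section cfg

variable {ι : Type} [Fintype ι] [DecidableEq ι] {q : ℕ}

/-- Restriction of a configuration to `T`. -/
def res (T : Finset ι) (σ : ι → Fin q) : T → Fin q := fun x => σ x

/-- Restriction of a configuration to the complement of `T`. -/
def resc (T : Finset ι) (σ : ι → Fin q) : {x // x ∉ T} → Fin q := fun x => σ x

@[simp] lemma res_glue (T : Finset ι) (a : T → Fin q) (b : {x // x ∉ T} → Fin q) :
    res T (glue T a b) = a := by
  funext x
  simp [res, glue]

@[simp] lemma resc_glue (T : Finset ι) (a : T → Fin q) (b : {x // x ∉ T} → Fin q) :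
    resc T (glue T a b) = b := by
  funext x
  simp [resc, glue, x.2]

@[simp] lemma glue_res_resc (T : Finset ι) (σ : ι → Fin q) : glue T (res T σ) (resc T σ) = σ := by
  funext x
  by_cases h : x ∈ T <;> simp [glue, res, resc, h]

lemma glue_apply_mem (T : Finset ι) (a : T → Fin q) (b : {x // x ∉ T} → Fin q) {x : ι} (h : x ∈ T) :
    glue T a b x = a ⟨x, h⟩ := by
  simp [glue, h]

lemma glue_apply_not_mem (T : Finset ι) (a : T → Fin q) (b : {x // x ∉ T} → Fin q) {x : ι}
    (h : x ∉ T) : glue T a b x = b ⟨x, h⟩ := by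
  simp [glue, h]

/-- A configuration is a pair of configurations on `T` and off `T`. -/
def cfgEquiv (T : Finset ι) : (ι → Fin q) ≃ (T → Fin q) × ({x // x ∉ T} → Fin q) where
  toFun σ := (res T σ, resc T σ)
  invFun p := glue T p.1 p.2
  left_inv σ := glue_res_resc T σ
  right_inv p := by simp

lemma sum_cfg {M : Type} [AddCommMonoid M] (T : Finset ι) (F : (ι → Fin q) → M) :
    ∑ σ, F σ = ∑ a, ∑ b, F (glue T a b) := by
  rw [← Equiv.sum_comp (cfgEquiv T).symm, Fintype.sum_prod_type]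
  rfl

lemma qf_cfg (T : Finset ι) (M : Matrix (ι → Fin q) (ι → Fin q) ℂ) (φ : (ι → Fin q) → ℂ) :
    qf M φ = ∑ a, ∑ b, ∑ a', ∑ b',
      star (φ (glue T a b)) * M (glue T a b) (glue T a' b') * φ (glue T a' b') := by
  unfold qf
  rw [sum_cfg T]
  refine Finset.sum_congr rfl (fun a _ => Finset.sum_congr rfl (fun b _ => ?_))
  rw [sum_cfg T]

lemma nsq_cfg (T : Finset ι) (φ : (ι → Fin q) → ℂ) :
    nsq φ = ∑ a, ∑ b, ‖φ (glue T a b)‖ ^ 2 := by
  unfold nsq
  rw [sum_cfg T]

/-- `M` acts on the tensor factors in `X` only. -/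
structure ActsOn (X : Finset ι) (M : Matrix (ι → Fin q) (ι → Fin q) ℂ) : Prop where
  off : ∀ σ τ, (∃ x, x ∉ X ∧ σ x ≠ τ x) → M σ τ = 0
  inv : ∀ σ τ σ' τ', (∀ x, x ∉ X → σ x = τ x) → (∀ x, x ∉ X → σ' x = τ' x) →
    (∀ x, x ∈ X → σ x = σ' x) → (∀ x, x ∈ X → τ x = τ' x) → M σ τ = M σ' τ'

lemma actsOn_embed (X : Finset ι) (m : Matrix (X → Fin q) (X → Fin q) ℂ) :
    ActsOn X (embed X m) := by
  constructor
  · rintro σ τ ⟨x, hx, hne⟩
    have : ¬ ∀ x, x ∉ X → σ x = τ x := fun h => hne (h x hx)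
    simp [embed, this]
  · intro σ τ σ' τ' h1 h2 h3 h4
    have e1 : (fun x : X => σ x) = (fun x : X => σ' x) := by
      funext x
      exact h3 x x.2
    have e2 : (fun x : X => τ x) = (fun x : X => τ' x) := by
      funext x
      exact h4 x x.2
    simp only [embed, e1, e2, if_pos h1, if_pos h2]

lemma ActsOn.mono {X Y : Finset ι} {M : Matrix (ι → Fin q) (ι → Fin q) ℂ} (h : ActsOn X M)
    (hXY : X ⊆ Y) : ActsOn Y M := by
  constructor
  · rintro σ τ ⟨x, hx, hne⟩
    exact h.off σ τ ⟨x, fun hxX => hx (hXY hxX), hne⟩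
  · intro σ τ σ' τ' h1 h2 h3 h4
    by_cases hc : ∀ x, x ∉ X → σ x = τ x
    · have hc' : ∀ x, x ∉ X → σ' x = τ' x := by
        intro x hx
        by_cases hy : x ∈ Y
        · rw [← h3 x hy, ← h4 x hy]
          exact hc x hx
        · exact h2 x hy
      exact h.inv σ τ σ' τ' hc hc' (fun x hx => h3 x (hXY hx)) (fun x hx => h4 x (hXY hx))
    · have hc' : ¬ ∀ x, x ∉ X → σ' x = τ' x := by
        intro hc'
        apply hc
        intro x hx
        by_cases hy : x ∈ Y
        · rw [h3 x hy, h4 x hy]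
          exact hc' x hx
        · exact h1 x hy
      push Not at hc hc'
      rw [h.off σ τ hc, h.off σ' τ' hc']

lemma ActsOn.add {X : Finset ι} {M N : Matrix (ι → Fin q) (ι → Fin q) ℂ} (hM : ActsOn X M)
    (hN : ActsOn X N) : ActsOn X (M + N) := by
  constructor
  · intro σ τ h
    simp [hM.off σ τ h, hN.off σ τ h]
  · intro σ τ σ' τ' h1 h2 h3 h4
    simp [hM.inv σ τ σ' τ' h1 h2 h3 h4, hN.inv σ τ σ' τ' h1 h2 h3 h4]

lemma ActsOn.zero (X : Finset ι) : ActsOn X (0 : Matrix (ι → Fin q) (ι → Fin q) ℂ) := by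
  constructor <;> simp

lemma ActsOn.sum {β : Type} (s : Finset β) (M : β → Matrix (ι → Fin q) (ι → Fin q) ℂ)
    {X : Finset ι} (h : ∀ b ∈ s, ActsOn X (M b)) : ActsOn X (∑ b ∈ s, M b) := by
  classical
  induction s using Finset.induction_on with
  | empty => simpa using ActsOn.zero X
  | insert a s ha ih =>
    rw [Finset.sum_insert ha]
    exact (h a (mem_insert_self a s)).add (ih (fun b hb => h b (mem_insert_of_mem hb)))

/-- `Phi T ψ M` is the partial expectation `⟨ψ|_T M |ψ⟩_T ⊗ 1_T`. -/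
noncomputable def Phi (T : Finset ι) (ψ : (T → Fin q) → ℂ) (M : Matrix (ι → Fin q) (ι → Fin q) ℂ) :
    Matrix (ι → Fin q) (ι → Fin q) ℂ :=
  fun σ τ => if res T σ = res T τ then
    ∑ c, ∑ c', star (ψ c) * M (glue T c (resc T σ)) (glue T c' (resc T τ)) * ψ c' else 0

/-- The trial vectors computing the quadratic form of `Phi T ψ M`. -/
noncomputable def trial (T : Finset ι) (ψ : (T → Fin q) → ℂ) (φ : (ι → Fin q) → ℂ) (k : T → Fin q) :
    (ι → Fin q) → ℂ :=
  fun σ => ψ (res T σ) * φ (glue T k (resc T σ))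

lemma qf_Phi (T : Finset ι) (ψ : (T → Fin q) → ℂ) (M : Matrix (ι → Fin q) (ι → Fin q) ℂ)
    (φ : (ι → Fin q) → ℂ) : qf (Phi T ψ M) φ = ∑ k, qf M (trial T ψ φ k) := by
  rw [qf_cfg T]
  simp_rw [qf_cfg T M]
  simp only [Phi, trial, res_glue, resc_glue]
  refine Finset.sum_congr rfl (fun k _ => ?_)
  have h1 : ∀ b, ∑ a', ∑ b', star (φ (glue T k b)) *
      (if k = a' then ∑ c, ∑ c', star (ψ c) * M (glue T c b) (glue T c' b') * ψ c' else 0) *
        φ (glue T a' b') =
      ∑ b', star (φ (glue T k b)) *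
      (∑ c, ∑ c', star (ψ c) * M (glue T c b) (glue T c' b') * ψ c') * φ (glue T k b') := by
    intro b
    rw [Finset.sum_eq_single k]
    · simp
    · intro a' _ hne
      simp [Ne.symm hne]
    · intro hk
      exact absurd (mem_univ k) hk
  simp_rw [h1]
  simp only [Finset.mul_sum, Finset.sum_mul]
  rw [Finset.sum_congr rfl (fun b _ => Finset.sum_comm), Finset.sum_comm]
  refine Finset.sum_congr rfl (fun c _ => Finset.sum_congr rfl (fun b _ => ?_))
  rw [Finset.sum_comm]
  refine Finset.sum_congr rfl (fun c' _ => Finset.sum_congr rfl (fun b' _ => ?_))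
  simp only [star_mul']
  ring

lemma en_Phi (T : Finset ι) (ψ : (T → Fin q) → ℂ) (M : Matrix (ι → Fin q) (ι → Fin q) ℂ)
    (φ : (ι → Fin q) → ℂ) : en (Phi T ψ M) φ = ∑ k, en M (trial T ψ φ k) := by
  simp [en, qf_Phi, Complex.re_sum]

lemma nsq_trial (T : Finset ι) (ψ : (T → Fin q) → ℂ) (φ : (ι → Fin q) → ℂ) :
    ∑ k, nsq (trial T ψ φ k) = nsq ψ * nsq φ := by
  simp_rw [nsq_cfg T]
  simp only [trial, res_glue, resc_glue, norm_mul, mul_pow]
  have h : ∀ k, ∑ a, ∑ b, ‖ψ a‖ ^ 2 * ‖φ (glue T k b)‖ ^ 2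
      = nsq ψ * ∑ b, ‖φ (glue T k b)‖ ^ 2 := by
    intro k
    simp_rw [← Finset.mul_sum]
    rw [nsq, Finset.sum_mul]
  simp_rw [h, ← Finset.mul_sum]

lemma LB_Phi {T : Finset ι} {ψ : (T → Fin q) → ℂ} (hψ : nsq ψ = 1)
    {M : Matrix (ι → Fin q) (ι → Fin q) ℂ} {a : ℝ} (h : LB M a) : LB (Phi T ψ M) a := by
  intro φ
  rw [en_Phi]
  have h2 := nsq_trial T ψ φ
  rw [hψ, one_mul] at h2
  rw [← h2, Finset.mul_sum]
  exact Finset.sum_le_sum (fun k _ => h _)

lemma UB_Phi {T : Finset ι} {ψ : (T → Fin q) → ℂ} (hψ : nsq ψ = 1)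
    {M : Matrix (ι → Fin q) (ι → Fin q) ℂ} {a : ℝ} (h : UB M a) : UB (Phi T ψ M) a := by
  intro φ
  rw [en_Phi]
  have h2 := nsq_trial T ψ φ
  rw [hψ, one_mul] at h2
  rw [← h2, Finset.mul_sum]
  exact Finset.sum_le_sum (fun k _ => h _)

lemma Phi_add (T : Finset ι) (ψ : (T → Fin q) → ℂ) (M N : Matrix (ι → Fin q) (ι → Fin q) ℂ) :
    Phi T ψ (M + N) = Phi T ψ M + Phi T ψ N := by
  ext σ τ
  simp only [Phi, Matrix.add_apply]
  split_ifs
  · simp only [mul_add, add_mul, Finset.sum_add_distrib]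
  · simp

lemma Phi_zero (T : Finset ι) (ψ : (T → Fin q) → ℂ) :
    Phi T ψ (0 : Matrix (ι → Fin q) (ι → Fin q) ℂ) = 0 := by
  ext σ τ
  simp [Phi]

lemma Phi_sum {β : Type} (T : Finset ι) (ψ : (T → Fin q) → ℂ) (s : Finset β)
    (M : β → Matrix (ι → Fin q) (ι → Fin q) ℂ) :
    Phi T ψ (∑ b ∈ s, M b) = ∑ b ∈ s, Phi T ψ (M b) := by
  classical
  induction s using Finset.induction_on with
  | empty => simp [Phi_zero]
  | insert a s ha ih => rw [Finset.sum_insert ha, Finset.sum_insert ha, Phi_add, ih]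

/-- Partial expectation fixes operators acting off `T`. -/
lemma Phi_of_disjoint {T X : Finset ι} (ψ : (T → Fin q) → ℂ)
    {M : Matrix (ι → Fin q) (ι → Fin q) ℂ} (hM : ActsOn X M) (hd : Disjoint X T) :
    Phi T ψ M = ((nsq ψ : ℝ) : ℂ) • M := by
  ext σ τ
  simp only [Phi, Matrix.smul_apply, smul_eq_mul]
  by_cases hres : res T σ = res T τ
  · rw [if_pos hres]
    have key : ∀ c c', M (glue T c (resc T σ)) (glue T c' (resc T τ))
        = if c = c' then M σ τ else 0 := by
      intro c c'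
      by_cases hcc : c = c'
      · subst hcc
        rw [if_pos rfl]
        by_cases hoff : ∃ x, x ∉ X ∧ σ x ≠ τ x
        · rw [hM.off σ τ hoff]
          obtain ⟨x, hx, hne⟩ := hoff
          refine hM.off _ _ ⟨x, hx, ?_⟩
          by_cases hxT : x ∈ T
          · have := congrFun hres ⟨x, hxT⟩
            exact absurd this hne
          · rw [glue_apply_not_mem T _ _ hxT, glue_apply_not_mem T _ _ hxT]
            exact hne
        · push Not at hoff
          refine hM.inv _ _ _ _ ?_ hoff ?_ ?_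
          · intro x hx
            by_cases hxT : x ∈ T
            · rw [glue_apply_mem T _ _ hxT, glue_apply_mem T _ _ hxT]
            · rw [glue_apply_not_mem T _ _ hxT, glue_apply_not_mem T _ _ hxT]
              exact hoff x hx
          · intro x hx
            have hxT : x ∉ T := Finset.disjoint_left.1 hd hx
            rw [glue_apply_not_mem T _ _ hxT]
            rfl
          · intro x hx
            have hxT : x ∉ T := Finset.disjoint_left.1 hd hx
            rw [glue_apply_not_mem T _ _ hxT]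
            rfl
      · rw [if_neg hcc]
        have : ∃ x : T, c x ≠ c' x := by
          by_contra hall
          push Not at hall
          exact hcc (funext hall)
        obtain ⟨x, hx⟩ := this
        refine hM.off _ _ ⟨x, fun hxX => Finset.disjoint_left.1 hd hxX x.2, ?_⟩
        rw [glue_apply_mem T _ _ x.2, glue_apply_mem T _ _ x.2]
        exact hx
    simp_rw [key]
    have h3 : ∀ c, ∑ c', star (ψ c) * (if c = c' then M σ τ else 0) * ψ c'
        = ((‖ψ c‖ ^ 2 : ℝ) : ℂ) * M σ τ := by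
      intro c
      rw [Finset.sum_eq_single c]
      · rw [if_pos rfl]
        push_cast
        rw [← Complex.conj_mul', Complex.star_def]
        ring
      · intro c' _ hne
        simp [Ne.symm hne]
      · intro h
        exact absurd (mem_univ c) h
    simp_rw [h3]
    rw [← Finset.sum_mul]
    simp [nsq]
  · rw [if_neg hres]
    have : ∃ x : T, σ x ≠ τ x := by
      by_contra hall
      push Not at hall
      exact hres (funext hall)
    obtain ⟨x, hx⟩ := this
    rw [hM.off σ τ ⟨x, fun hxX => Finset.disjoint_left.1 hd hxX x.2, hx⟩]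
    simp

/-- Partial expectation removes `T` from the support. -/
lemma ActsOn.Phi {T X : Finset ι} (ψ : (T → Fin q) → ℂ)
    {M : Matrix (ι → Fin q) (ι → Fin q) ℂ} (hM : ActsOn X M) :
    ActsOn (X \ T) (Phi T ψ M) := by
  constructor
  · rintro σ τ ⟨x, hx, hne⟩
    simp only [P356.Phi]
    split_ifs with hres
    · have hxT : x ∉ T := by
        intro hxT
        exact hne (congrFun hres ⟨x, hxT⟩)
      have hxX : x ∉ X := by
        intro hxX
        exact hx (Finset.mem_sdiff.2 ⟨hxX, hxT⟩)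
      refine Finset.sum_eq_zero (fun c _ => Finset.sum_eq_zero (fun c' _ => ?_))
      rw [hM.off _ _ ⟨x, hxX, ?_⟩]
      · simp
      · rw [glue_apply_not_mem T _ _ hxT, glue_apply_not_mem T _ _ hxT]
        exact hne
    · rfl
  · intro σ τ σ' τ' h1 h2 h3 h4
    simp only [P356.Phi]
    have hres : res T σ = res T τ := by
      funext x
      exact h1 x (fun hx => (Finset.mem_sdiff.1 hx).2 x.2)
    have hres' : res T σ' = res T τ' := by
      funext x
      exact h2 x (fun hx => (Finset.mem_sdiff.1 hx).2 x.2)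
    rw [if_pos hres, if_pos hres']
    refine Finset.sum_congr rfl (fun c _ => Finset.sum_congr rfl (fun c' _ => ?_))
    congr 2
    by_cases hcc : ∀ x, x ∉ X → glue T c (resc T σ) x = glue T c' (resc T τ) x
    · refine hM.inv _ _ _ _ hcc ?_ ?_ ?_
      · intro x hx
        by_cases hxT : x ∈ T
        · rw [glue_apply_mem T _ _ hxT, glue_apply_mem T _ _ hxT]
          have := hcc x hx
          rwa [glue_apply_mem T _ _ hxT, glue_apply_mem T _ _ hxT] at this
        · rw [glue_apply_not_mem T _ _ hxT, glue_apply_not_mem T _ _ hxT]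
          exact h2 x (fun h => hx (Finset.mem_sdiff.1 h).1)
      · intro x hx
        by_cases hxT : x ∈ T
        · rw [glue_apply_mem T _ _ hxT, glue_apply_mem T _ _ hxT]
        · rw [glue_apply_not_mem T _ _ hxT, glue_apply_not_mem T _ _ hxT]
          exact h3 x (Finset.mem_sdiff.2 ⟨hx, hxT⟩)
      · intro x hx
        by_cases hxT : x ∈ T
        · rw [glue_apply_mem T _ _ hxT, glue_apply_mem T _ _ hxT]
        · rw [glue_apply_not_mem T _ _ hxT, glue_apply_not_mem T _ _ hxT]
          exact h4 x (Finset.mem_sdiff.2 ⟨hx, hxT⟩)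
    · push Not at hcc
      obtain ⟨x, hx, hne⟩ := hcc
      rw [hM.off _ _ ⟨x, hx, hne⟩]
      symm
      refine hM.off _ _ ⟨x, hx, ?_⟩
      by_cases hxT : x ∈ T
      · rw [glue_apply_mem T _ _ hxT, glue_apply_mem T _ _ hxT] at hne ⊢
        exact hne
      · exfalso
        rw [glue_apply_not_mem T _ _ hxT, glue_apply_not_mem T _ _ hxT] at hne
        exact hne (h1 x (fun h => hx (Finset.mem_sdiff.1 h).1))

/-- Partial expectation of an operator on `T` is a scalar. -/
lemma Phi_embed (T : Finset ι) (ψ : (T → Fin q) → ℂ) (m : Matrix (T → Fin q) (T → Fin q) ℂ) :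
    Phi T ψ (embed T m) = (qf m ψ) • (1 : Matrix (ι → Fin q) (ι → Fin q) ℂ) := by
  ext σ τ
  simp only [Phi, Matrix.smul_apply, smul_eq_mul, embed]
  by_cases hστ : σ = τ
  · subst hστ
    simp only [Matrix.one_apply_eq, mul_one]
    rw [if_pos trivial]
    unfold qf
    refine Finset.sum_congr rfl (fun c _ => Finset.sum_congr rfl (fun c' _ => ?_))
    have h : ∀ x, x ∉ T → glue T c (resc T σ) x = glue T c' (resc T σ) x := by
      intro x hx
      rw [glue_apply_not_mem T _ _ hx, glue_apply_not_mem T _ _ hx]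
    rw [if_pos h]
    have e1 : (fun x : T => glue T c (resc T σ) x) = c := by
      funext x
      exact glue_apply_mem T _ _ x.2
    have e2 : (fun x : T => glue T c' (resc T σ) x) = c' := by
      funext x
      exact glue_apply_mem T _ _ x.2
    rw [e1, e2]
  · rw [Matrix.one_apply_ne hστ, mul_zero]
    split_ifs with hres
    · have hx : ∃ x, x ∉ T ∧ σ x ≠ τ x := by
        by_contra hall
        push Not at hall
        apply hστ
        funext x
        by_cases hxT : x ∈ T
        · exact congrFun hres ⟨x, hxT⟩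
        · exact hall x hxT
      obtain ⟨x, hxT, hne⟩ := hx
      refine Finset.sum_eq_zero (fun c _ => Finset.sum_eq_zero (fun c' _ => ?_))
      have : ¬ ∀ y, y ∉ T → glue T c (resc T σ) y = glue T c' (resc T τ) y := by
        intro h
        have := h x hxT
        rw [glue_apply_not_mem T _ _ hxT, glue_apply_not_mem T _ _ hxT] at this
        exact hne this
      rw [if_neg this]
      simp
    · rfl

end cfg


section cfg2

variable {ι : Type} [Fintype ι] [DecidableEq ι] {q : ℕ} [NeZero q]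

omit [DecidableEq ι] in
lemma qf_smul {α : Type} [Fintype α] (c : ℂ) (M : Matrix α α ℂ) (φ : α → ℂ) :
    qf (c • M) φ = c * qf M φ := by
  simp only [qf, Matrix.smul_apply, smul_eq_mul, Finset.mul_sum]
  refine Finset.sum_congr rfl (fun σ _ => Finset.sum_congr rfl (fun τ _ => ?_))
  ring

omit [DecidableEq ι] in
lemma en_smul_real {α : Type} [Fintype α] (r : ℝ) (M : Matrix α α ℂ) (φ : α → ℂ) :
    en ((r : ℂ) • M) φ = r * en M φ := by
  rw [en, qf_smul, Complex.re_ofReal_mul, en]

/-- The point mass on a local configuration. -/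
noncomputable def delta (T : Finset ι) (c : T → Fin q) : (T → Fin q) → ℂ :=
  fun c' => if c' = c then 1 else 0

lemma nsq_delta (T : Finset ι) (c : T → Fin q) : nsq (delta T c) = 1 := by
  unfold nsq
  rw [Finset.sum_eq_single c]
  · simp [delta]
  · intro c' _ hne
    simp [delta, hne]
  · intro h
    exact absurd (mem_univ c) h

/-- The dimension of the factors on `T`. -/
abbrev dimT (T : Finset ι) (q : ℕ) : ℕ := Fintype.card (T → Fin q)

/-- The dimension of the factors off `T`. -/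
abbrev dimC (T : Finset ι) (q : ℕ) : ℕ := Fintype.card ({x // x ∉ T} → Fin q)

lemma dimT_pos (T : Finset ι) : 0 < dimT T q := Fintype.card_pos

lemma dimC_pos (T : Finset ι) : 0 < dimC T q := Fintype.card_pos

lemma card_cfg (T : Finset ι) : Fintype.card (ι → Fin q) = dimT T q * dimC T q := by
  rw [Fintype.card_congr (cfgEquiv T), Fintype.card_prod]

/-- Normalized partial trace over `T` (replaces the factors in `T` by the maximally mixed state). -/
noncomputable def twirl (T : Finset ι) (M : Matrix (ι → Fin q) (ι → Fin q) ℂ) :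
    Matrix (ι → Fin q) (ι → Fin q) ℂ :=
  (((dimT T q : ℝ)⁻¹ : ℝ) : ℂ) • ∑ c, Phi T (delta T c) M

lemma en_twirl (T : Finset ι) (M : Matrix (ι → Fin q) (ι → Fin q) ℂ) (φ : (ι → Fin q) → ℂ) :
    en (twirl T M) φ = (dimT T q : ℝ)⁻¹ * ∑ c, en (Phi T (delta T c) M) φ := by
  rw [twirl, en_smul_real, en_sum]

lemma LB_twirl (T : Finset ι) {M : Matrix (ι → Fin q) (ι → Fin q) ℂ} {a : ℝ} (h : LB M a) :
    LB (twirl T M) a := by
  intro φ
  rw [en_twirl]
  have hd : (0 : ℝ) < dimT T q := by exact_mod_cast dimT_pos T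
  have h1 : ∀ c, a * nsq φ ≤ en (Phi T (delta T c) M) φ := fun c => LB_Phi (nsq_delta T c) h φ
  have h2 : (dimT T q : ℝ) * (a * nsq φ) ≤ ∑ c, en (Phi T (delta T c) M) φ := by
    have := Finset.sum_le_sum (fun c (_ : c ∈ (univ : Finset (T → Fin q))) => h1 c)
    simpa using this
  rw [inv_mul_eq_div, le_div_iff₀ hd]
  linarith

lemma UB_twirl (T : Finset ι) {M : Matrix (ι → Fin q) (ι → Fin q) ℂ} {a : ℝ} (h : UB M a) :
    UB (twirl T M) a := by
  intro φ
  rw [en_twirl]
  have hd : (0 : ℝ) < dimT T q := by exact_mod_cast dimT_pos T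
  have h1 : ∀ c, en (Phi T (delta T c) M) φ ≤ a * nsq φ := fun c => UB_Phi (nsq_delta T c) h φ
  have h2 : ∑ c, en (Phi T (delta T c) M) φ ≤ (dimT T q : ℝ) * (a * nsq φ) := by
    have := Finset.sum_le_sum (fun c (_ : c ∈ (univ : Finset (T → Fin q))) => h1 c)
    simpa using this
  rw [inv_mul_eq_div, div_le_iff₀ hd]
  linarith

lemma twirl_add (T : Finset ι) (M N : Matrix (ι → Fin q) (ι → Fin q) ℂ) :
    twirl T (M + N) = twirl T M + twirl T N := by
  simp only [twirl, Phi_add, Finset.sum_add_distrib, smul_add]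

lemma twirl_zero (T : Finset ι) :
    twirl T (0 : Matrix (ι → Fin q) (ι → Fin q) ℂ) = 0 := by
  simp [twirl, Phi_zero]

lemma twirl_sum {β : Type} (T : Finset ι) (s : Finset β)
    (M : β → Matrix (ι → Fin q) (ι → Fin q) ℂ) :
    twirl T (∑ b ∈ s, M b) = ∑ b ∈ s, twirl T (M b) := by
  classical
  induction s using Finset.induction_on with
  | empty => simp [twirl_zero]
  | insert a s ha ih => rw [Finset.sum_insert ha, Finset.sum_insert ha, twirl_add, ih]

lemma twirl_of_disjoint {T X : Finset ι} {M : Matrix (ι → Fin q) (ι → Fin q) ℂ} (hM : ActsOn X M)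
    (hd : Disjoint X T) : twirl T M = M := by
  have h1 : ∀ c, Phi T (delta T c) M = M := by
    intro c
    rw [Phi_of_disjoint _ hM hd, nsq_delta]
    simp
  have hd' : ((dimT T q : ℝ) : ℂ) ≠ 0 := by
    have : (dimT T q : ℝ) ≠ 0 := by exact_mod_cast (dimT_pos T).ne'
    exact_mod_cast this
  simp only [twirl, h1, Finset.sum_const, Finset.card_univ]
  rw [← Nat.cast_smul_eq_nsmul ℂ, smul_smul]
  push_cast
  rw [inv_mul_cancel₀ (by exact_mod_cast hd'), one_smul]

lemma ActsOn.smul {X : Finset ι} {M : Matrix (ι → Fin q) (ι → Fin q) ℂ} (h : ActsOn X M) (c : ℂ) :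
    ActsOn X (c • M) := by
  constructor
  · intro σ τ hx
    simp [h.off σ τ hx]
  · intro σ τ σ' τ' h1 h2 h3 h4
    simp [h.inv σ τ σ' τ' h1 h2 h3 h4]

lemma ActsOn.twirl {T X : Finset ι} {M : Matrix (ι → Fin q) (ι → Fin q) ℂ} (hM : ActsOn X M) :
    ActsOn (X \ T) (twirl T M) :=
  (ActsOn.sum _ _ (fun c _ => hM.Phi (delta T c))).smul _

/-- Normalized trace. -/
noncomputable def mean (M : Matrix (ι → Fin q) (ι → Fin q) ℂ) : ℝ :=
  (Matrix.trace M).re / (Fintype.card (ι → Fin q) : ℝ)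

lemma mean_add (M N : Matrix (ι → Fin q) (ι → Fin q) ℂ) : mean (M + N) = mean M + mean N := by
  simp [mean, Matrix.trace_add, add_div]

lemma mean_sum {β : Type} (s : Finset β) (M : β → Matrix (ι → Fin q) (ι → Fin q) ℂ) :
    mean (∑ b ∈ s, M b) = ∑ b ∈ s, mean (M b) := by
  classical
  induction s using Finset.induction_on with
  | empty => simp [mean]
  | insert a s ha ih => rw [Finset.sum_insert ha, Finset.sum_insert ha, mean_add, ih]

/-- Diagonal entries as expectation values. -/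
lemma en_point {α : Type} [Fintype α] [DecidableEq α] (M : Matrix α α ℂ) (σ : α) :
    en M (fun τ => if τ = σ then 1 else 0) = (M σ σ).re ∧
    nsq (fun τ : α => (if τ = σ then 1 else 0 : ℂ)) = 1 := by
  constructor
  · simp only [en, qf]
    rw [Finset.sum_eq_single σ]
    · rw [Finset.sum_eq_single σ]
      · simp
      · intro τ _ hne
        simp [hne]
      · intro h
        exact absurd (mem_univ σ) h
    · intro τ _ hne
      simp [hne]
    · intro h
      exact absurd (mem_univ σ) h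
  · unfold nsq
    rw [Finset.sum_eq_single σ]
    · simp
    · intro τ _ hne
      simp [hne]
    · intro h
      exact absurd (mem_univ σ) h

lemma trace_re_eq_sum {α : Type} [Fintype α] (M : Matrix α α ℂ) :
    (Matrix.trace M).re = ∑ σ, (M σ σ).re := by
  simp [Matrix.trace, Complex.re_sum]

lemma le_mean_of_LB {M : Matrix (ι → Fin q) (ι → Fin q) ℂ} {a : ℝ} (h : LB M a) : a ≤ mean M := by
  have hc : (0 : ℝ) < Fintype.card (ι → Fin q) := by exact_mod_cast Fintype.card_pos
  rw [mean, le_div_iff₀ hc, trace_re_eq_sum]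
  have h1 : ∀ σ : ι → Fin q, a ≤ (M σ σ).re := by
    intro σ
    have := h (fun τ => if τ = σ then 1 else 0)
    rw [(en_point M σ).1, (en_point M σ).2, mul_one] at this
    exact this
  have := Finset.sum_le_sum (fun σ (_ : σ ∈ (univ : Finset (ι → Fin q))) => h1 σ)
  simpa [mul_comm] using this

lemma mean_le_of_UB {M : Matrix (ι → Fin q) (ι → Fin q) ℂ} {a : ℝ} (h : UB M a) : mean M ≤ a := by
  have hc : (0 : ℝ) < Fintype.card (ι → Fin q) := by exact_mod_cast Fintype.card_pos
  rw [mean, div_le_iff₀ hc, trace_re_eq_sum]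
  have h1 : ∀ σ : ι → Fin q, (M σ σ).re ≤ a := by
    intro σ
    have := h (fun τ => if τ = σ then 1 else 0)
    rw [(en_point M σ).1, (en_point M σ).2, mul_one] at this
    exact this
  have := Finset.sum_le_sum (fun σ (_ : σ ∈ (univ : Finset (ι → Fin q))) => h1 σ)
  simpa [mul_comm] using this

/-- The normalized partial trace onto `T`, as a matrix on the factors in `T`. -/
noncomputable def ptr (T : Finset ι) (M : Matrix (ι → Fin q) (ι → Fin q) ℂ) :
    Matrix (T → Fin q) (T → Fin q) ℂ :=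
  fun c c' => (((dimC T q : ℝ)⁻¹ : ℝ) : ℂ) * ∑ b, M (glue T c b) (glue T c' b)

lemma ptr_add (T : Finset ι) (M N : Matrix (ι → Fin q) (ι → Fin q) ℂ) :
    ptr T (M + N) = ptr T M + ptr T N := by
  ext c c'
  simp [ptr, mul_add, Finset.sum_add_distrib]

lemma ptr_zero (T : Finset ι) : ptr T (0 : Matrix (ι → Fin q) (ι → Fin q) ℂ) = 0 := by
  ext c c'
  simp [ptr]

lemma ptr_sum {β : Type} (T : Finset ι) (s : Finset β)
    (M : β → Matrix (ι → Fin q) (ι → Fin q) ℂ) :
    ptr T (∑ b ∈ s, M b) = ∑ b ∈ s, ptr T (M b) := by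
  classical
  induction s using Finset.induction_on with
  | empty => simp [ptr_zero]
  | insert a s ha ih => rw [Finset.sum_insert ha, Finset.sum_insert ha, ptr_add, ih]

lemma ptr_isHermitian (T : Finset ι) {M : Matrix (ι → Fin q) (ι → Fin q) ℂ} (hM : M.IsHermitian) :
    (ptr T M).IsHermitian := by
  ext c c'
  simp only [ptr, Matrix.conjTranspose_apply, star_mul', star_sum]
  congr 1
  · simp
  · refine Finset.sum_congr rfl (fun b _ => ?_)
    exact congrFun (congrFun hM _) _

/-- The quadratic form of the partial trace is the normalized trace of the partial expectation. -/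
lemma en_ptr (T : Finset ι) (M : Matrix (ι → Fin q) (ι → Fin q) ℂ) (ψ : (T → Fin q) → ℂ) :
    en (ptr T M) ψ = mean (Phi T ψ M) := by
  have hT : ((dimT T q : ℝ) : ℂ) ≠ 0 := by
    have : (dimT T q : ℝ) ≠ 0 := by exact_mod_cast (dimT_pos T).ne'
    exact_mod_cast this
  have hC : ((dimC T q : ℝ) : ℂ) ≠ 0 := by
    have : (dimC T q : ℝ) ≠ 0 := by exact_mod_cast (dimC_pos T).ne'
    exact_mod_cast this
  have h1 : Matrix.trace (Phi T ψ M) =
      ((dimT T q : ℝ) : ℂ) * ∑ b, ∑ c, ∑ c', star (ψ c) * M (glue T c b) (glue T c' b) * ψ c' := by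
    simp only [Matrix.trace, Matrix.diag_apply]
    rw [sum_cfg T]
    simp only [Phi, res_glue, resc_glue, if_true]
    simp [Finset.card_univ, Finset.mul_sum]
  have h2 : qf (ptr T M) ψ = (((dimC T q : ℝ)⁻¹ : ℝ) : ℂ) *
      ∑ b, ∑ c, ∑ c', star (ψ c) * M (glue T c b) (glue T c' b) * ψ c' := by
    unfold qf ptr
    rw [Finset.sum_comm (s := (univ : Finset ({x // x ∉ T} → Fin q)))]
    simp only [Finset.mul_sum]
    refine Finset.sum_congr rfl (fun c _ => ?_)
    rw [Finset.sum_comm]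
    refine Finset.sum_congr rfl (fun c' _ => ?_)
    simp only [Finset.sum_mul, Finset.mul_sum]
    refine Finset.sum_congr rfl (fun b _ => ?_)
    ring
  have hcard : (Fintype.card (ι → Fin q) : ℝ) = (dimT T q : ℝ) * (dimC T q : ℝ) := by
    rw [card_cfg T]
    push_cast
    ring
  unfold en mean
  rw [h1, h2, hcard]
  have hT' : (dimT T q : ℝ) ≠ 0 := by exact_mod_cast (dimT_pos T).ne'
  have hC' : (dimC T q : ℝ) ≠ 0 := by exact_mod_cast (dimC_pos T).ne'
  rw [Complex.re_ofReal_mul, Complex.re_ofReal_mul]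
  field_simp

/-- The trace of the partial trace. -/
lemma trace_ptr (T : Finset ι) (M : Matrix (ι → Fin q) (ι → Fin q) ℂ) :
    (Matrix.trace (ptr T M)).re = (dimT T q : ℝ) * mean M := by
  have h1 : Matrix.trace (ptr T M) = (((dimC T q : ℝ)⁻¹ : ℝ) : ℂ) * Matrix.trace M := by
    simp only [Matrix.trace, Matrix.diag_apply]
    rw [sum_cfg T]
    simp only [ptr, Finset.mul_sum]
  rw [h1, Complex.re_ofReal_mul, mean, card_cfg T]
  have hT' : (dimT T q : ℝ) ≠ 0 := by exact_mod_cast (dimT_pos T).ne'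
  have hC' : (dimC T q : ℝ) ≠ 0 := by exact_mod_cast (dimC_pos T).ne'
  push_cast
  field_simp

/-- `LB` with a non-normalized vector. -/
lemma LB_Phi' {T : Finset ι} (ψ : (T → Fin q) → ℂ)
    {M : Matrix (ι → Fin q) (ι → Fin q) ℂ} {a : ℝ} (h : LB M a) : LB (Phi T ψ M) (a * nsq ψ) := by
  intro φ
  rw [en_Phi]
  have h2 := nsq_trial T ψ φ
  rw [mul_assoc, ← h2, Finset.mul_sum]
  exact Finset.sum_le_sum (fun k _ => h _)

lemma UB_Phi' {T : Finset ι} (ψ : (T → Fin q) → ℂ)
    {M : Matrix (ι → Fin q) (ι → Fin q) ℂ} {a : ℝ} (h : UB M a) : UB (Phi T ψ M) (a * nsq ψ) := by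
  intro φ
  rw [en_Phi]
  have h2 := nsq_trial T ψ φ
  rw [mul_assoc, ← h2, Finset.mul_sum]
  exact Finset.sum_le_sum (fun k _ => h _)

lemma LB_ptr (T : Finset ι) {M : Matrix (ι → Fin q) (ι → Fin q) ℂ} {a : ℝ} (h : LB M a) :
    LB (ptr T M) a := by
  intro ψ
  rw [en_ptr]
  exact le_mean_of_LB (LB_Phi' ψ h)

lemma UB_ptr (T : Finset ι) {M : Matrix (ι → Fin q) (ι → Fin q) ℂ} {a : ℝ} (h : UB M a) :
    UB (ptr T M) a := by
  intro ψ
  rw [en_ptr]
  exact mean_le_of_UB (UB_Phi' ψ h)

lemma embed_glue (T : Finset ι) (m : Matrix (T → Fin q) (T → Fin q) ℂ) (a a' : T → Fin q)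
    (b b' : {x // x ∉ T} → Fin q) :
    embed T m (glue T a b) (glue T a' b') = if b = b' then m a a' else 0 := by
  unfold embed
  have e1 : (fun x : T => glue T a b x) = a := by
    funext x
    exact glue_apply_mem T _ _ x.2
  have e2 : (fun x : T => glue T a' b' x) = a' := by
    funext x
    exact glue_apply_mem T _ _ x.2
  rw [e1, e2]
  by_cases hb : b = b'
  · subst hb
    rw [if_pos rfl, if_pos]
    intro x hx
    rw [glue_apply_not_mem T _ _ hx, glue_apply_not_mem T _ _ hx]
  · rw [if_neg hb, if_neg]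
    intro h
    apply hb
    funext x
    have := h x.1 x.2
    rwa [glue_apply_not_mem T _ _ x.2, glue_apply_not_mem T _ _ x.2] at this

lemma qf_embed (T : Finset ι) (m : Matrix (T → Fin q) (T → Fin q) ℂ) (φ : (ι → Fin q) → ℂ) :
    qf (embed T m) φ = ∑ b, qf m (fun a => φ (glue T a b)) := by
  rw [qf_cfg T]
  simp_rw [embed_glue]
  unfold qf
  rw [Finset.sum_comm]
  refine Finset.sum_congr rfl (fun b _ => ?_)
  refine Finset.sum_congr rfl (fun a _ => ?_)
  refine Finset.sum_congr rfl (fun a' _ => ?_)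
  rw [Finset.sum_eq_single b]
  · simp
  · intro b' _ hne
    simp [Ne.symm hne]
  · intro h
    exact absurd (mem_univ b) h

lemma LB_embed (T : Finset ι) {m : Matrix (T → Fin q) (T → Fin q) ℂ} {a : ℝ} (h : LB m a) :
    LB (embed T m) a := by
  intro φ
  have h1 : nsq φ = ∑ b, nsq (fun a => φ (glue T a b)) := by
    rw [nsq_cfg T, Finset.sum_comm]
    rfl
  rw [h1, en, qf_embed, Complex.re_sum, Finset.mul_sum]
  exact Finset.sum_le_sum (fun b _ => h _)

lemma UB_embed (T : Finset ι) {m : Matrix (T → Fin q) (T → Fin q) ℂ} {a : ℝ} (h : UB m a) :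
    UB (embed T m) a := by
  intro φ
  have h1 : nsq φ = ∑ b, nsq (fun a => φ (glue T a b)) := by
    rw [nsq_cfg T, Finset.sum_comm]
    rfl
  rw [h1, en, qf_embed, Complex.re_sum, Finset.mul_sum]
  exact Finset.sum_le_sum (fun b _ => h _)

lemma embed_isHermitian (T : Finset ι) {m : Matrix (T → Fin q) (T → Fin q) ℂ}
    (hm : m.IsHermitian) : (embed T m).IsHermitian := by
  ext σ τ
  simp only [Matrix.conjTranspose_apply, embed]
  have hiff : (∀ x, x ∉ T → τ x = σ x) ↔ (∀ x, x ∉ T → σ x = τ x) :=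
    ⟨fun h x hx => (h x hx).symm, fun h x hx => (h x hx).symm⟩
  by_cases h : ∀ x, x ∉ T → σ x = τ x
  · rw [if_pos h, if_pos (hiff.2 h)]
    exact congrFun (congrFun hm _) _
  · rw [if_neg h, if_neg (fun h' => h (hiff.1 h'))]
    simp

/-- The partial trace onto `T` fixes operators acting inside `T`. -/
lemma embed_ptr_of_subset {T X : Finset ι} {M : Matrix (ι → Fin q) (ι → Fin q) ℂ}
    (hM : ActsOn X M) (hXT : X ⊆ T) : embed T (ptr T M) = M := by
  ext σ τ
  simp only [embed]
  by_cases hoff : ∀ x, x ∉ T → σ x = τ x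
  · rw [if_pos hoff]
    simp only [ptr]
    have hterm : ∀ b, M (glue T (fun x => σ x) b) (glue T (fun x => τ x) b) = M σ τ := by
      intro b
      by_cases hc : ∃ x, x ∉ X ∧ σ x ≠ τ x
      · rw [hM.off σ τ hc]
        obtain ⟨x, hx, hne⟩ := hc
        have hxT : x ∈ T := by
          by_contra hxT
          exact hne (hoff x hxT)
        refine hM.off _ _ ⟨x, hx, ?_⟩
        rw [glue_apply_mem T _ _ hxT, glue_apply_mem T _ _ hxT]
        exact hne
      · push Not at hc
        refine hM.inv _ _ _ _ ?_ hc ?_ ?_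
        · intro x hx
          by_cases hxT : x ∈ T
          · rw [glue_apply_mem T _ _ hxT, glue_apply_mem T _ _ hxT]
            exact hc x hx
          · rw [glue_apply_not_mem T _ _ hxT, glue_apply_not_mem T _ _ hxT]
        · intro x hx
          rw [glue_apply_mem T _ _ (hXT hx)]
        · intro x hx
          rw [glue_apply_mem T _ _ (hXT hx)]
    simp_rw [hterm]
    simp only [Finset.sum_const, Finset.card_univ, nsmul_eq_mul]
    have hC' : ((dimC T q : ℝ) : ℂ) ≠ 0 := by
      have : (dimC T q : ℝ) ≠ 0 := by exact_mod_cast (dimC_pos T).ne'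
      exact_mod_cast this
    push_cast
    push_cast at hC'
    field_simp
  · rw [if_neg hoff]
    push Not at hoff
    obtain ⟨x, hx, hne⟩ := hoff
    exact (hM.off σ τ ⟨x, fun h => hx (hXT h), hne⟩).symm

/-- The partial trace onto `T` restricts the support to `T`. -/
lemma ActsOn.embed_ptr {T X : Finset ι} {M : Matrix (ι → Fin q) (ι → Fin q) ℂ}
    (hM : ActsOn X M) : ActsOn (X ∩ T) (embed T (ptr T M)) := by
  constructor
  · rintro σ τ ⟨x, hx, hne⟩
    simp only [embed]
    split_ifs with hoff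
    · have hxT : x ∈ T := by
        by_contra hxT
        exact hne (hoff x hxT)
      have hxX : x ∉ X := fun h => hx (Finset.mem_inter.2 ⟨h, hxT⟩)
      simp only [ptr]
      rw [Finset.sum_eq_zero, mul_zero]
      intro b _
      refine hM.off _ _ ⟨x, hxX, ?_⟩
      rw [glue_apply_mem T _ _ hxT, glue_apply_mem T _ _ hxT]
      exact hne
    · rfl
  · intro σ τ σ' τ' h1 h2 h3 h4
    simp only [embed]
    have hoff : ∀ x, x ∉ T → σ x = τ x := fun x hx => h1 x (fun h => hx (Finset.mem_inter.1 h).2)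
    have hoff' : ∀ x, x ∉ T → σ' x = τ' x := fun x hx => h2 x (fun h => hx (Finset.mem_inter.1 h).2)
    rw [if_pos hoff, if_pos hoff']
    simp only [ptr]
    congr 1
    refine Finset.sum_congr rfl (fun b _ => ?_)
    refine hM.inv _ _ _ _ ?_ ?_ ?_ ?_
    · intro x hx
      by_cases hxT : x ∈ T
      · rw [glue_apply_mem T _ _ hxT, glue_apply_mem T _ _ hxT]
        exact h1 x (fun h => hx (Finset.mem_inter.1 h).1)
      · rw [glue_apply_not_mem T _ _ hxT, glue_apply_not_mem T _ _ hxT]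
    · intro x hx
      by_cases hxT : x ∈ T
      · rw [glue_apply_mem T _ _ hxT, glue_apply_mem T _ _ hxT]
        exact h2 x (fun h => hx (Finset.mem_inter.1 h).1)
      · rw [glue_apply_not_mem T _ _ hxT, glue_apply_not_mem T _ _ hxT]
    · intro x hx
      by_cases hxT : x ∈ T
      · rw [glue_apply_mem T _ _ hxT, glue_apply_mem T _ _ hxT]
        exact h3 x (Finset.mem_inter.2 ⟨hx, hxT⟩)
      · rw [glue_apply_not_mem T _ _ hxT, glue_apply_not_mem T _ _ hxT]
    · intro x hx
      by_cases hxT : x ∈ T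
      · rw [glue_apply_mem T _ _ hxT, glue_apply_mem T _ _ hxT]
        exact h4 x (Finset.mem_inter.2 ⟨hx, hxT⟩)
      · rw [glue_apply_not_mem T _ _ hxT, glue_apply_not_mem T _ _ hxT]

end cfg2


section gap

variable {ι : Type} [Fintype ι] [DecidableEq ι] {q : ℕ} [NeZero q]

lemma norm_inner_sq_le {β : Type} [Fintype β] (x y : β → ℂ) :
    ‖∑ b, star (x b) * y b‖ ^ 2 ≤ nsq x * nsq y := by
  have h1 : ‖∑ b, star (x b) * y b‖ ≤ ∑ b, ‖x b‖ * ‖y b‖ := by
    refine (norm_sum_le _ _).trans (le_of_eq ?_)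
    refine Finset.sum_congr rfl (fun b _ => ?_)
    rw [norm_mul, norm_star]
  have h2 : (∑ b, ‖x b‖ * ‖y b‖) ^ 2 ≤ (∑ b, ‖x b‖ ^ 2) * ∑ b, ‖y b‖ ^ 2 :=
    Finset.sum_mul_sq_le_sq_mul_sq _ _ _
  calc ‖∑ b, star (x b) * y b‖ ^ 2 ≤ (∑ b, ‖x b‖ * ‖y b‖) ^ 2 :=
        pow_le_pow_left₀ (norm_nonneg _) h1 2
    _ ≤ nsq x * nsq y := h2

section
variable {H : Matrix (ι → Fin q) (ι → Fin q) ℂ} {Δ E₀ : ℝ} {Ω : (ι → Fin q) → ℂ}

lemma HasGap.nsq_eq (h : HasGap H Δ E₀ Ω) : nsq Ω = 1 := h.1

lemma HasGap.en_eq (h : HasGap H Δ E₀ Ω) : en H Ω = E₀ := by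
  rw [en, qf_eq_dotProduct, h.2.1, dotProduct_smul, smul_eq_mul, Complex.re_ofReal_mul,
    ← nsq_eq_dotProduct, h.nsq_eq, mul_one]

lemma HasGap.ineq (h : HasGap H Δ E₀ Ω) (ψ : (ι → Fin q) → ℂ) :
    Δ * (nsq ψ - ‖∑ σ, star (Ω σ) * ψ σ‖ ^ 2) ≤ en H ψ - E₀ * nsq ψ := by
  have := h.2.2 ψ
  rw [en, qf_eq_dotProduct]
  exact this

lemma HasGap.lowerBound (hΔ : 0 ≤ Δ) (h : HasGap H Δ E₀ Ω) : LB H E₀ := by
  intro ψ
  have h1 := h.ineq ψ
  have h2 := norm_inner_sq_le Ω ψ
  rw [h.nsq_eq, one_mul] at h2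
  have h3 : 0 ≤ Δ * (nsq ψ - ‖∑ σ, star (Ω σ) * ψ σ‖ ^ 2) :=
    mul_nonneg hΔ (by linarith)
  linarith

end

lemma overlap_trial (T : Finset ι) (Ω : (ι → Fin q) → ℂ) (c k : T → Fin q) :
    ∑ σ, star (Ω σ) * trial T (delta T c) Ω k σ
      = ∑ b, star (Ω (glue T c b)) * Ω (glue T k b) := by
  rw [sum_cfg T]
  simp only [trial, res_glue, resc_glue]
  rw [Finset.sum_eq_single c]
  · simp [delta]
  · intro a _ hne
    simp [delta, hne]
  · intro h
    exact absurd (mem_univ c) h

lemma overlap_sum_le (T : Finset ι) (Ω : (ι → Fin q) → ℂ) :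
    ∑ c, ∑ k, ‖∑ σ, star (Ω σ) * trial T (delta T c) Ω k σ‖ ^ 2 ≤ nsq Ω ^ 2 := by
  set w : (T → Fin q) → ℝ := fun c => nsq (fun b => Ω (glue T c b)) with hw
  have h1 : nsq Ω = ∑ c, w c := nsq_cfg T Ω
  have h2 : ∀ c k, ‖∑ σ, star (Ω σ) * trial T (delta T c) Ω k σ‖ ^ 2 ≤ w c * w k := by
    intro c k
    rw [overlap_trial]
    exact norm_inner_sq_le _ _
  calc ∑ c, ∑ k, ‖∑ σ, star (Ω σ) * trial T (delta T c) Ω k σ‖ ^ 2
      ≤ ∑ c, ∑ k, w c * w k := Finset.sum_le_sum (fun c _ => Finset.sum_le_sum (fun k _ => h2 c k))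
    _ = nsq Ω ^ 2 := by
      rw [h1, sq, Finset.sum_mul_sum]

/-- The energy of the twirled Hamiltonian in the ground state exceeds the ground energy. -/
theorem twirl_gap {H : Matrix (ι → Fin q) (ι → Fin q) ℂ} {Δ E₀ : ℝ} {Ω : (ι → Fin q) → ℂ}
    (hΔ : 0 ≤ Δ) (hgap : HasGap H Δ E₀ Ω) (T : Finset ι) :
    E₀ + Δ * (1 - (dimT T q : ℝ)⁻¹) ≤ en (twirl T H) Ω := by
  have hd : (0 : ℝ) < dimT T q := by exact_mod_cast dimT_pos T
  rw [en_twirl]
  simp_rw [en_Phi]
  have hterm : ∀ c k, E₀ * nsq (trial T (delta T c) Ω k) + Δ * (nsq (trial T (delta T c) Ω k)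
      - ‖∑ σ, star (Ω σ) * trial T (delta T c) Ω k σ‖ ^ 2) ≤ en H (trial T (delta T c) Ω k) := by
    intro c k
    have := hgap.ineq (trial T (delta T c) Ω k)
    linarith
  have hsum := Finset.sum_le_sum (fun c (_ : c ∈ (univ : Finset (T → Fin q))) =>
    Finset.sum_le_sum (fun k (_ : k ∈ (univ : Finset (T → Fin q))) => hterm c k))
  simp only [Finset.sum_add_distrib, ← Finset.mul_sum, Finset.sum_sub_distrib] at hsum
  have h1 : ∀ c, ∑ k, nsq (trial T (delta T c) Ω k) = 1 := by
    intro c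
    rw [nsq_trial, nsq_delta, hgap.nsq_eq, one_mul]
  simp only [h1] at hsum
  have h2 := overlap_sum_le T Ω
  rw [hgap.nsq_eq] at h2
  simp only [Finset.sum_const, Finset.card_univ, nsmul_eq_mul, mul_one] at hsum
  have h3 : Δ * ((dimT T q : ℝ) - 1) ≤ Δ * ((dimT T q : ℝ) -
      ∑ c, ∑ k, ‖∑ σ, star (Ω σ) * trial T (delta T c) Ω k σ‖ ^ 2) := by
    apply mul_le_mul_of_nonneg_left _ hΔ
    have : ∑ c, ∑ k, ‖∑ σ, star (Ω σ) * trial T (delta T c) Ω k σ‖ ^ 2 ≤ 1 := by simpa using h2
    linarith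
  rw [inv_mul_eq_div, le_div_iff₀ hd]
  have h4 : (E₀ + Δ * (1 - (dimT T q : ℝ)⁻¹)) * (dimT T q : ℝ)
      = E₀ * (dimT T q : ℝ) + Δ * ((dimT T q : ℝ) - 1) := by
    field_simp
  rw [h4]
  linarith

end gap


section tile

variable {ι : Type} [Fintype ι] [DecidableEq ι] {q : ℕ} [NeZero q]

lemma embed_add (T : Finset ι) (m n : Matrix (T → Fin q) (T → Fin q) ℂ) :
    embed T (m + n) = embed T m + embed T n := by
  ext σ τ
  simp only [embed, Matrix.add_apply]
  split_ifs <;> simp

lemma embed_zero (T : Finset ι) :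
    embed T (0 : Matrix (T → Fin q) (T → Fin q) ℂ) = 0 := by
  ext σ τ
  simp [embed]

lemma embed_sum {β : Type} (T : Finset ι) (s : Finset β)
    (m : β → Matrix (T → Fin q) (T → Fin q) ℂ) :
    embed T (∑ b ∈ s, m b) = ∑ b ∈ s, embed T (m b) := by
  classical
  induction s using Finset.induction_on with
  | empty => simp [embed_zero]
  | insert a s ha ih => rw [Finset.sum_insert ha, Finset.sum_insert ha, embed_add, ih]

lemma dimT_singleton (x : ι) : dimT ({x} : Finset ι) q = q := by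
  simp [dimT, Fintype.card_fun]

lemma LB.mono {α : Type} [Fintype α] {M : Matrix α α ℂ} {a a' : ℝ} (h : LB M a) (ha : a' ≤ a) :
    LB M a' := fun φ => (mul_le_mul_of_nonneg_right ha (nsq_nonneg φ)).trans (h φ)

lemma UB.mono {α : Type} [Fintype α] {M : Matrix α α ℂ} {a a' : ℝ} (h : UB M a) (ha : a ≤ a') :
    UB M a' := fun φ => (h φ).trans (mul_le_mul_of_nonneg_right ha (nsq_nonneg φ))

/-- The tile lemma: there is a state on the tile `T` lowering the mean energy by a fixed amount. -/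
theorem tile_lemma {H K K' : Matrix (ι → Fin q) (ι → Fin q) ℂ} {Δ E₀ : ℝ} {Ω : (ι → Fin q) → ℂ}
    (hΔ : 0 ≤ Δ) (hq2 : 2 ≤ q) (hgap : HasGap H Δ E₀ Ω) (hH : H = K + K')
    (x : ι) (T : Finset ι) (hK' : twirl ({x} : Finset ι) K' = K')
    {β : Type} (s : Finset β) (M : β → Matrix (ι → Fin q) (ι → Fin q) ℂ) (X : β → Finset ι)
    (hKs : K = ∑ b ∈ s, M b) (hact : ∀ b ∈ s, ActsOn (X b) (M b))
    (hcover : ∀ b ∈ s, x ∈ X b → X b ⊆ T) (hKh : K.IsHermitian) :
    ∃ ψ : (T → Fin q) → ℂ, nsq ψ = 1 ∧ mean (Phi T ψ K) ≤ mean K - Δ / (2 * dimT T q) := by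
  have hnΩ := hgap.nsq_eq
  have hq : (1 : ℝ) / 2 ≤ 1 - ((dimT ({x} : Finset ι) q : ℕ) : ℝ)⁻¹ := by
    rw [dimT_singleton]
    have : (2 : ℝ) ≤ q := by exact_mod_cast hq2
    have h2 : ((q : ℝ))⁻¹ ≤ 2⁻¹ := inv_anti₀ (by norm_num) this
    norm_num at h2 ⊢
    linarith
  have h1 := twirl_gap hΔ hgap ({x} : Finset ι)
  have h1' : E₀ + Δ * (1 / 2) ≤ en (twirl ({x} : Finset ι) H) Ω := by
    have := mul_le_mul_of_nonneg_left hq hΔ
    linarith
  have h2 : en (twirl ({x} : Finset ι) H) Ω = en (twirl ({x} : Finset ι) K) Ω + en K' Ω := by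
    rw [hH, twirl_add, en_add, hK']
  have h3 : E₀ = en K Ω + en K' Ω := by rw [← hgap.en_eq, hH, en_add]
  have h4 : Δ / 2 ≤ en (twirl ({x} : Finset ι) K) Ω - en K Ω := by linarith
  -- the tile operator
  set R : Matrix (ι → Fin q) (ι → Fin q) ℂ := embed T (ptr T K) with hR
  have hterm : ∀ b ∈ s, twirl ({x} : Finset ι) (embed T (ptr T (M b))) + M b
      = twirl ({x} : Finset ι) (M b) + embed T (ptr T (M b)) := by
    intro b hb
    by_cases hxb : x ∈ X b
    · rw [embed_ptr_of_subset (hact b hb) (hcover b hb hxb)]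
    · have hd1 : Disjoint (X b) ({x} : Finset ι) := by
        simpa [Finset.disjoint_singleton_right] using hxb
      have hd2 : Disjoint (X b ∩ T) ({x} : Finset ι) := by
        rw [Finset.disjoint_singleton_right]
        exact fun h => hxb (Finset.mem_inter.1 h).1
      rw [twirl_of_disjoint (hact b hb).embed_ptr hd2, twirl_of_disjoint (hact b hb) hd1, add_comm]
  have h5 : twirl ({x} : Finset ι) R + K = twirl ({x} : Finset ι) K + R := by
    have e1 : R = ∑ b ∈ s, embed T (ptr T (M b)) := by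
      rw [hR, hKs, ptr_sum, embed_sum]
    rw [e1]
    conv_lhs => rw [hKs]
    conv_rhs => rw [hKs]
    rw [twirl_sum, twirl_sum, ← Finset.sum_add_distrib, ← Finset.sum_add_distrib]
    exact Finset.sum_congr rfl hterm
  have h6 : en (twirl ({x} : Finset ι) R) Ω + en K Ω = en (twirl ({x} : Finset ι) K) Ω + en R Ω := by
    rw [← en_add, ← en_add, h5]
  -- spectral data
  have hA : (ptr T K).IsHermitian := ptr_isHermitian T hKh
  obtain ⟨jmin, -, hjmin⟩ := Finset.exists_min_image (univ : Finset (T → Fin q)) hA.eigenvalues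
    Finset.univ_nonempty
  obtain ⟨jmax, -, hjmax⟩ := Finset.exists_max_image (univ : Finset (T → Fin q)) hA.eigenvalues
    Finset.univ_nonempty
  set ymin := hA.eigenvalues jmin with hymin
  set ymax := hA.eigenvalues jmax with hymax
  have hLB : LB (ptr T K) ymin := LB_of_eigen hA (fun j => hjmin j (mem_univ j))
  have hUB : UB (ptr T K) ymax := UB_of_eigen hA (fun j => hjmax j (mem_univ j))
  have hLBR : LB R ymin := LB_embed T hLB
  have hUBR : UB R ymax := UB_embed T hUB
  have h7 := UB_twirl ({x} : Finset ι) hUBR Ω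
  have h8 := hLBR Ω
  rw [hnΩ, mul_one] at h7 h8
  have h9 : Δ / 2 ≤ ymax - ymin := by linarith
  -- trace
  have htr : ∑ j, hA.eigenvalues j = (dimT T q : ℝ) * mean K := by
    have h10 := hA.trace_eq_sum_eigenvalues
    have h11 := trace_ptr T K
    rw [h10, Complex.re_sum] at h11
    simpa using h11
  have hD : (0 : ℝ) < dimT T q := by exact_mod_cast dimT_pos T
  have hsumge : ymax + ((dimT T q : ℝ) - 1) * ymin ≤ ∑ j, hA.eigenvalues j := by
    rw [← Finset.add_sum_erase univ hA.eigenvalues (mem_univ jmax)]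
    have h12 : (Finset.univ.erase jmax).card • ymin ≤ ∑ j ∈ univ.erase jmax, hA.eigenvalues j :=
      Finset.card_nsmul_le_sum _ _ _ (fun j _ => hjmin j (mem_univ j))
    have h13 : (((Finset.univ.erase jmax).card : ℕ) : ℝ) = (dimT T q : ℝ) - 1 := by
      rw [Finset.card_erase_of_mem (mem_univ jmax), Finset.card_univ]
      have : 1 ≤ dimT T q := dimT_pos T
      push_cast [Nat.cast_sub this]
      rfl
    rw [nsmul_eq_mul, h13] at h12
    linarith
  rw [htr] at hsumge
  have hfin : ymin ≤ mean K - Δ / (2 * dimT T q) := by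
    have h14 : Δ / (2 * (dimT T q : ℝ)) ≤ mean K - ymin := by
      rw [div_le_iff₀ (by positivity)]
      nlinarith
    linarith
  have hfacts := eigenvector_facts hA jmin
  refine ⟨fun c => (hA.eigenvectorUnitary : Matrix (T → Fin q) (T → Fin q) ℂ) c jmin, hfacts.1, ?_⟩
  rw [← en_ptr, hfacts.2]
  exact hfin

/-- Data of a tile: a subset and a vector on it. -/
abbrev TileData (ι : Type) [DecidableEq ι] (q : ℕ) := Σ T : Finset ι, ((T → Fin q) → ℂ)

/-- Successive partial expectations over a list of tiles. -/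
noncomputable def chain :
    List (TileData ι q) → Matrix (ι → Fin q) (ι → Fin q) ℂ → Matrix (ι → Fin q) (ι → Fin q) ℂ
  | [], M => M
  | p :: l, M => chain l (Phi p.1 p.2 M)

lemma chain_add (l : List (TileData ι q)) (M N : Matrix (ι → Fin q) (ι → Fin q) ℂ) :
    chain l (M + N) = chain l M + chain l N := by
  induction l generalizing M N with
  | nil => rfl
  | cons p l ih => simp only [chain, Phi_add, ih]

lemma chain_zero (l : List (TileData ι q)) :
    chain l (0 : Matrix (ι → Fin q) (ι → Fin q) ℂ) = 0 := by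
  induction l with
  | nil => rfl
  | cons p l ih => simp only [chain, Phi_zero, ih]

lemma chain_sum {β : Type} (l : List (TileData ι q)) (s : Finset β)
    (M : β → Matrix (ι → Fin q) (ι → Fin q) ℂ) :
    chain l (∑ b ∈ s, M b) = ∑ b ∈ s, chain l (M b) := by
  classical
  induction s using Finset.induction_on with
  | empty => simp [chain_zero]
  | insert a s ha ih => rw [Finset.sum_insert ha, Finset.sum_insert ha, chain_add, ih]

lemma Phi_unit_of_disjoint {T X : Finset ι} {ψ : (T → Fin q) → ℂ} (hψ : nsq ψ = 1)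
    {M : Matrix (ι → Fin q) (ι → Fin q) ℂ} (hM : ActsOn X M) (hd : Disjoint X T) :
    Phi T ψ M = M := by
  rw [Phi_of_disjoint ψ hM hd, hψ]
  simp

lemma chain_fix (l : List (TileData ι q)) (hl : ∀ p ∈ l, nsq p.2 = 1) {X : Finset ι}
    {M : Matrix (ι → Fin q) (ι → Fin q) ℂ} (hM : ActsOn X M) (hd : ∀ p ∈ l, Disjoint X p.1) :
    chain l M = M := by
  induction l with
  | nil => rfl
  | cons p l ih =>
    simp only [chain]
    rw [Phi_unit_of_disjoint (hl p (List.mem_cons_self)) hM (hd p (List.mem_cons_self))]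
    exact ih (fun p' hp' => hl p' (List.mem_cons_of_mem _ hp'))
      (fun p' hp' => hd p' (List.mem_cons_of_mem _ hp'))

lemma LB_chain (l : List (TileData ι q)) (hl : ∀ p ∈ l, nsq p.2 = 1)
    {M : Matrix (ι → Fin q) (ι → Fin q) ℂ} {a : ℝ} (h : LB M a) : LB (chain l M) a := by
  induction l generalizing M with
  | nil => exact h
  | cons p l ih =>
    exact ih (fun p' hp' => hl p' (List.mem_cons_of_mem _ hp'))
      (LB_Phi (hl p (List.mem_cons_self)) h)

lemma mean_chain_single (l : List (TileData ι q)) (hl : ∀ p ∈ l, nsq p.2 = 1) {X : Finset ι}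
    {M : Matrix (ι → Fin q) (ι → Fin q) ℂ} (hM : ActsOn X M)
    (hpw : l.Pairwise (fun p p' => Disjoint X p.1 ∨ Disjoint X p'.1)) :
    mean (chain l M) = mean M + (l.map (fun p => mean (Phi p.1 p.2 M) - mean M)).sum := by
  induction l with
  | nil => simp [chain]
  | cons p l ih =>
    have hp : nsq p.2 = 1 := hl p (List.mem_cons_self)
    have hl' : ∀ p' ∈ l, nsq p'.2 = 1 := fun p' hp' => hl p' (List.mem_cons_of_mem _ hp')
    rw [List.pairwise_cons] at hpw
    by_cases hd : Disjoint X p.1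
    · simp only [chain, List.map_cons, List.sum_cons]
      rw [Phi_unit_of_disjoint hp hM hd, ih hl' hpw.2]
      ring
    · have hd' : ∀ p' ∈ l, Disjoint X p'.1 := by
        intro p' hp'
        rcases hpw.1 p' hp' with h | h
        · exact absurd h hd
        · exact h
      simp only [chain, List.map_cons, List.sum_cons]
      have hact : ActsOn X (Phi p.1 p.2 M) := (hM.Phi p.2).mono Finset.sdiff_subset
      rw [chain_fix l hl' hact hd']
      have hzero : (l.map (fun p' => mean (Phi p'.1 p'.2 M) - mean M)).sum = 0 := by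
        apply List.sum_eq_zero
        intro y hy
        obtain ⟨p', hp', rfl⟩ := List.mem_map.1 hy
        rw [Phi_unit_of_disjoint (hl' p' hp') hM (hd' p' hp')]
        ring
      rw [hzero]
      ring

lemma mean_chain (l : List (TileData ι q)) (hl : ∀ p ∈ l, nsq p.2 = 1) {β : Type} (s : Finset β)
    (M : β → Matrix (ι → Fin q) (ι → Fin q) ℂ) (X : β → Finset ι)
    (hM : ∀ b ∈ s, ActsOn (X b) (M b))
    (hpw : ∀ b ∈ s, l.Pairwise (fun p p' => Disjoint (X b) p.1 ∨ Disjoint (X b) p'.1)) :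
    mean (chain l (∑ b ∈ s, M b)) = mean (∑ b ∈ s, M b) +
      (l.map (fun p => mean (Phi p.1 p.2 (∑ b ∈ s, M b)) - mean (∑ b ∈ s, M b))).sum := by
  classical
  induction s using Finset.induction_on with
  | empty => simp [chain_zero, Phi_zero, mean]
  | insert a s ha ih =>
    have h1 := ih (fun b hb => hM b (mem_insert_of_mem hb)) (fun b hb => hpw b (mem_insert_of_mem hb))
    have h2 := mean_chain_single l hl (hM a (mem_insert_self a s)) (hpw a (mem_insert_self a s))
    rw [Finset.sum_insert ha, chain_add, mean_add, h1, h2, mean_add]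
    have h3 : (l.map (fun p => mean (Phi p.1 p.2 (M a + ∑ b ∈ s, M b)) - (mean (M a) + mean (∑ b ∈ s, M b)))).sum
        = (l.map (fun p => mean (Phi p.1 p.2 (M a)) - mean (M a))).sum
          + (l.map (fun p => mean (Phi p.1 p.2 (∑ b ∈ s, M b)) - mean (∑ b ∈ s, M b))).sum := by
      rw [← List.sum_map_add]
      congr 1
      refine List.map_congr_left (fun p _ => ?_)
      rw [Phi_add, mean_add]
      ring
    rw [h3]
    ring

lemma list_sum_le_length_mul {γ : Type} (l : List γ) (f : γ → ℝ) (c : ℝ) (h : ∀ p ∈ l, f p ≤ c) :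
    (l.map f).sum ≤ l.length * c := by
  induction l with
  | nil => simp
  | cons p l ih =>
    simp only [List.map_cons, List.sum_cons, List.length_cons]
    have h1 := h p (List.mem_cons_self)
    have h2 := ih (fun p' hp' => h p' (List.mem_cons_of_mem _ hp'))
    push_cast
    linarith

end tile

section reduced

open scoped ComplexOrder

variable {ι : Type} [Fintype ι] [DecidableEq ι] {q : ℕ} [NeZero q]

lemma reducedDensity_posSemidef (Ω : (ι → Fin q) → ℂ) (A : Finset ι) :
    (reducedDensity Ω A).PosSemidef := by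
  have h : reducedDensity Ω A =
      (Matrix.of fun (a : A → Fin q) (b : {x // x ∉ A} → Fin q) => Ω (glue A a b)) *
      (Matrix.of fun (a : A → Fin q) (b : {x // x ∉ A} → Fin q) => Ω (glue A a b))ᴴ := by
    ext a a'
    simp [reducedDensity, Matrix.mul_apply]
  rw [h]
  exact Matrix.posSemidef_self_mul_conjTranspose _

lemma reduced_eig_nonneg (Ω : (ι → Fin q) → ℂ) (A : Finset ι) (i : A → Fin q) :
    0 ≤ (reducedDensity_isHermitian Ω A).eigenvalues i :=
  (reducedDensity_posSemidef Ω A).eigenvalues_nonneg i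

lemma reduced_eig_sum {Ω : (ι → Fin q) → ℂ} (h : nsq Ω = 1) (A : Finset ι) :
    ∑ i, (reducedDensity_isHermitian Ω A).eigenvalues i = 1 := by
  have h1 := (reducedDensity_isHermitian Ω A).trace_eq_sum_eigenvalues
  have h2 : (reducedDensity Ω A).trace = ((nsq Ω : ℝ) : ℂ) := by
    rw [nsq_cfg A]
    simp only [Matrix.trace, Matrix.diag_apply, reducedDensity]
    push_cast
    refine Finset.sum_congr rfl (fun a _ => Finset.sum_congr rfl (fun b _ => ?_))
    rw [Complex.star_def, Complex.mul_conj, Complex.normSq_eq_norm_sq]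
    push_cast
    rfl
  rw [h2, h] at h1
  have h3 := congrArg Complex.re h1
  simpa [Complex.re_sum] using h3.symm

lemma trace_reduced_mul (Ω : (ι → Fin q) → ℂ) (A : Finset ι)
    (m : Matrix (A → Fin q) (A → Fin q) ℂ) :
    (reducedDensity Ω A * m).trace = qf (embed A m) Ω := by
  rw [qf_embed]
  simp only [Matrix.trace, Matrix.diag_apply, Matrix.mul_apply, reducedDensity, Finset.sum_mul, qf]
  rw [Finset.sum_comm, Finset.sum_congr rfl (fun j _ => Finset.sum_comm), Finset.sum_comm]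
  refine Finset.sum_congr rfl (fun b _ => Finset.sum_congr rfl (fun j _ =>
    Finset.sum_congr rfl (fun i _ => ?_)))
  ring

lemma entropy_le_log {Ω : (ι → Fin q) → ℂ} (h : nsq Ω = 1) (A : Finset ι) :
    entropy Ω A ≤ Real.log (dimT A q) :=
  entropy_le_log_card _ (reduced_eig_nonneg Ω A) (reduced_eig_sum h A)

end reduced


section box

variable {ι : Type} [Fintype ι] [DecidableEq ι] {q : ℕ} [NeZero q]

lemma en_scalar (c : ℂ) (φ : (ι → Fin q) → ℂ) :
    en (c • (1 : Matrix (ι → Fin q) (ι → Fin q) ℂ)) φ = c.re * nsq φ := by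
  have h1 : qf (1 : Matrix (ι → Fin q) (ι → Fin q) ℂ) φ = ((nsq φ : ℝ) : ℂ) := by
    rw [qf_eq_dotProduct, Matrix.one_mulVec]
    have := nsq_eq_dotProduct φ
    apply Complex.ext
    · simp [this]
    · simp only [Complex.ofReal_im, dotProduct, Pi.star_apply, Complex.im_sum]
      refine Finset.sum_eq_zero (fun x _ => ?_)
      simp [Complex.star_def, mul_comm]
  rw [en, qf_smul, h1, Complex.re_mul_ofReal]

/-- The main bound for the entropy of a box. -/
theorem box_entropy_bound
    {H : Matrix (ι → Fin q) (ι → Fin q) ℂ} {Δ E₀ : ℝ} {Ω : (ι → Fin q) → ℂ}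
    (hΔ : 0 ≤ Δ) (hq2 : 2 ≤ q) (hgap : HasGap H Δ E₀ Ω)
    {β : Type} [DecidableEq β] (S : Finset β) (X : β → Finset ι)
    (M : β → Matrix (ι → Fin q) (ι → Fin q) ℂ) (hH : H = ∑ b ∈ S, M b)
    (hact : ∀ b ∈ S, ActsOn (X b) (M b)) (hherm : ∀ b ∈ S, (M b).IsHermitian)
    {J : ℝ} (hJ : 0 ≤ J) (hlb : ∀ b ∈ S, LB (M b) (-J)) (hub : ∀ b ∈ S, UB (M b) J)
    (B : Finset ι) (Nc Ni : ℕ)
    (hNc : (S.filter (fun b => ¬ X b ⊆ B ∧ ¬ Disjoint (X b) B)).card ≤ Nc)
    (hNi : (S.filter (fun b => X b ⊆ B)).card ≤ Ni)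
    (centers : List ι) (tile : ι → Finset ι)
    (ht0 : ∀ c ∈ centers, c ∈ tile c)
    (ht1 : ∀ c ∈ centers, ∀ b ∈ S, c ∈ X b → X b ⊆ tile c)
    (ht2 : ∀ c ∈ centers, ∀ b ∈ S, ¬ Disjoint (X b) (tile c) → X b ⊆ B)
    (ht3 : centers.Pairwise (fun c c' => ∀ b ∈ S, Disjoint (X b) (tile c) ∨ Disjoint (X b) (tile c')))
    (DT : ℕ) (hDT : ∀ c ∈ centers, dimT (tile c) q ≤ DT) (hDTpos : 0 < DT)
    (MM : ℝ) (hMM : 0 < MM) (hMMle : 2 * (Ni : ℝ) * J ≤ MM) :
    entropy Ω B ≤ Real.log (dimT B q) + 2 * (Nc : ℝ) * J / MM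
      - ((centers.length : ℝ) * (Δ / (2 * (DT : ℝ)))) / (2 * MM) := by
  classical
  have hnΩ := hgap.nsq_eq
  -- the three pieces of the Hamiltonian
  set Sin := S.filter (fun b => X b ⊆ B) with hSin
  set Sout := S.filter (fun b => ¬ X b ⊆ B ∧ Disjoint (X b) B) with hSout
  set Scr := S.filter (fun b => ¬ X b ⊆ B ∧ ¬ Disjoint (X b) B) with hScr
  set K : Matrix (ι → Fin q) (ι → Fin q) ℂ := ∑ b ∈ Sin, M b with hK
  set Ho : Matrix (ι → Fin q) (ι → Fin q) ℂ := ∑ b ∈ Sout, M b with hHo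
  set Hc : Matrix (ι → Fin q) (ι → Fin q) ℂ := ∑ b ∈ Scr, M b with hHc
  have hsplit : H = K + (Ho + Hc) := by
    rw [hH, ← Finset.sum_filter_add_sum_filter_not S (fun b => X b ⊆ B)]
    congr 1
    rw [← Finset.sum_filter_add_sum_filter_not (S.filter (fun b => ¬ X b ⊆ B))
      (fun b => Disjoint (X b) B), Finset.filter_filter, Finset.filter_filter]
  have hKherm : K.IsHermitian := by
    have : ∀ (s : Finset β), (∀ b ∈ s, (M b).IsHermitian) → (∑ b ∈ s, M b).IsHermitian := by
      intro s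
      induction s using Finset.induction_on with
      | empty => simp [Matrix.IsHermitian]
      | insert a s ha ih =>
        intro hs
        rw [Finset.sum_insert ha]
        exact (hs a (mem_insert_self a s)).add (ih (fun b hb => hs b (mem_insert_of_mem hb)))
    exact this Sin (fun b hb => hherm b (Finset.mem_filter.1 hb).1)
  have hKact : ActsOn B K := ActsOn.sum _ _ (fun b hb =>
    (hact b (Finset.mem_filter.1 hb).1).mono (Finset.mem_filter.1 hb).2)
  -- bounds for K
  have hKlb : LB K (-((Ni : ℝ) * J)) := by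
    have h1 : LB K (∑ b ∈ Sin, (-J)) := LB_sum _ _ _ (fun b hb => hlb b (Finset.mem_filter.1 hb).1)
    refine h1.mono ?_
    simp only [Finset.sum_const, nsmul_eq_mul, mul_neg]
    have : ((Sin.card : ℕ) : ℝ) ≤ Ni := by exact_mod_cast hNi
    have := mul_le_mul_of_nonneg_right this hJ
    linarith
  have hKub : UB K ((Ni : ℝ) * J) := by
    have h1 : UB K (∑ b ∈ Sin, J) := UB_sum _ _ _ (fun b hb => hub b (Finset.mem_filter.1 hb).1)
    refine h1.mono ?_
    simp only [Finset.sum_const, nsmul_eq_mul]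
    have : ((Sin.card : ℕ) : ℝ) ≤ Ni := by exact_mod_cast hNi
    exact mul_le_mul_of_nonneg_right this hJ
  have hcrlb : LB Hc (-((Nc : ℝ) * J)) := by
    have h1 : LB Hc (∑ b ∈ Scr, (-J)) := LB_sum _ _ _ (fun b hb => hlb b (Finset.mem_filter.1 hb).1)
    refine h1.mono ?_
    simp only [Finset.sum_const, nsmul_eq_mul, mul_neg]
    have : ((Scr.card : ℕ) : ℝ) ≤ Nc := by exact_mod_cast hNc
    have := mul_le_mul_of_nonneg_right this hJ
    linarith
  have hcrub : UB Hc ((Nc : ℝ) * J) := by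
    have h1 : UB Hc (∑ b ∈ Scr, J) := UB_sum _ _ _ (fun b hb => hub b (Finset.mem_filter.1 hb).1)
    refine h1.mono ?_
    simp only [Finset.sum_const, nsmul_eq_mul]
    have : ((Scr.card : ℕ) : ℝ) ≤ Nc := by exact_mod_cast hNc
    exact mul_le_mul_of_nonneg_right this hJ
  -- the box operator
  set Khat := ptr B K with hKhat
  have hKemb : embed B Khat = K := embed_ptr_of_subset hKact (Finset.Subset.refl B)
  have hKhatH : Khat.IsHermitian := ptr_isHermitian B hKherm
  have hKhlb : LB Khat (-((Ni : ℝ) * J)) := LB_ptr B hKlb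
  have hKhub : UB Khat ((Ni : ℝ) * J) := UB_ptr B hKub
  obtain ⟨jmin, -, hjmin⟩ := Finset.exists_min_image (univ : Finset (B → Fin q)) hKhatH.eigenvalues
    Finset.univ_nonempty
  set y := hKhatH.eigenvalues jmin with hy
  set ψ₀ : (B → Fin q) → ℂ := fun c => (hKhatH.eigenvectorUnitary : Matrix (B → Fin q) (B → Fin q) ℂ) c jmin with hψ₀
  have hψ₀facts := eigenvector_facts hKhatH jmin
  have hψ₀n : nsq ψ₀ = 1 := hψ₀facts.1
  have hψ₀e : en Khat ψ₀ = y := hψ₀facts.2
  have hLBy : LB Khat y := LB_of_eigen hKhatH (fun j => hjmin j (mem_univ j))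
  -- energy comparison
  have hcomp : en K Ω ≤ y + 2 * (Nc : ℝ) * J := by
    have h1 : E₀ ≤ en (Phi B ψ₀ H) Ω := by
      have := LB_Phi hψ₀n (hgap.lowerBound hΔ) Ω
      rwa [hnΩ, mul_one] at this
    have h2 : Phi B ψ₀ H = Phi B ψ₀ K + (Ho + Phi B ψ₀ Hc) := by
      rw [hsplit, Phi_add, Phi_add]
      congr 2
      rw [hHo, Phi_sum]
      refine Finset.sum_congr rfl (fun b hb => ?_)
      have hb' := Finset.mem_filter.1 hb
      exact Phi_unit_of_disjoint hψ₀n (hact b hb'.1) hb'.2.2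
    have h3 : en (Phi B ψ₀ K) Ω = y := by
      rw [← hKemb, Phi_embed, en_scalar, hnΩ, mul_one]
      exact hψ₀e
    have h4 : en (Phi B ψ₀ Hc) Ω ≤ (Nc : ℝ) * J := by
      have := UB_Phi hψ₀n hcrub Ω
      rwa [hnΩ, mul_one] at this
    have h5 : -((Nc : ℝ) * J) ≤ en Hc Ω := by
      have := hcrlb Ω
      rwa [hnΩ, mul_one] at this
    have h6 : E₀ = en K Ω + (en Ho Ω + en Hc Ω) := by
      rw [← hgap.en_eq, hsplit, en_add, en_add]
    rw [h2, en_add, en_add, h3] at h1
    linarith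
  -- tile lemma at every center
  set K' := Ho + Hc with hK'def
  have htile : ∀ c : ι, ∃ ψ : (tile c → Fin q) → ℂ, c ∈ centers →
      (nsq ψ = 1 ∧ mean (Phi (tile c) ψ K) ≤ mean K - Δ / (2 * (DT : ℝ))) := by
    intro c
    by_cases hc : c ∈ centers
    · have hK'fix : twirl ({c} : Finset ι) K' = K' := by
        have hnc : ∀ b ∈ S, ¬ X b ⊆ B → Disjoint (X b) ({c} : Finset ι) := by
          intro b hb hnb
          rw [Finset.disjoint_singleton_right]
          intro hcb
          apply hnb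
          apply ht2 c hc b hb
          rw [Finset.not_disjoint_iff]
          exact ⟨c, hcb, ht0 c hc⟩
        rw [hK'def, twirl_add, hHo, hHc, twirl_sum, twirl_sum]
        congr 1
        · refine Finset.sum_congr rfl (fun b hb => ?_)
          have hb' := Finset.mem_filter.1 hb
          exact twirl_of_disjoint (hact b hb'.1) (hnc b hb'.1 hb'.2.1)
        · refine Finset.sum_congr rfl (fun b hb => ?_)
          have hb' := Finset.mem_filter.1 hb
          exact twirl_of_disjoint (hact b hb'.1) (hnc b hb'.1 hb'.2.1)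
      obtain ⟨ψ, h1, h2⟩ := tile_lemma hΔ hq2 hgap hsplit c (tile c) hK'fix Sin M X rfl
        (fun b hb => hact b (Finset.mem_filter.1 hb).1)
        (fun b hb hcb => ht1 c hc b (Finset.mem_filter.1 hb).1 hcb) hKherm
      refine ⟨ψ, fun _ => ⟨h1, h2.trans ?_⟩⟩
      have hd1 : (0 : ℝ) < dimT (tile c) q := by exact_mod_cast dimT_pos _
      have hd2 : ((dimT (tile c) q : ℕ) : ℝ) ≤ DT := by exact_mod_cast hDT c hc
      have : Δ / (2 * (DT : ℝ)) ≤ Δ / (2 * (dimT (tile c) q : ℝ)) :=
        div_le_div_of_nonneg_left hΔ (by positivity) (by linarith)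
      linarith
    · exact ⟨0, fun h => absurd h hc⟩
  choose ψ hψ using htile
  set l : List (TileData ι q) := centers.map (fun c => (⟨tile c, ψ c⟩ : TileData ι q)) with hl
  have hlunit : ∀ p ∈ l, nsq p.2 = 1 := by
    intro p hp
    obtain ⟨c, hc, rfl⟩ := List.mem_map.1 hp
    exact (hψ c hc).1
  have hmeanl : y ≤ mean K - (centers.length : ℝ) * (Δ / (2 * (DT : ℝ))) := by
    have h1 : y ≤ mean (chain l K) := le_mean_of_LB (LB_chain l hlunit (by rw [← hKemb]; exact LB_embed B hLBy))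
    have h2 := mean_chain l hlunit Sin M X (fun b hb => hact b (Finset.mem_filter.1 hb).1)
      (by
        intro b hb
        rw [hl, List.pairwise_map]
        exact ht3.imp (fun h => h b (Finset.mem_filter.1 hb).1))
    have h3 : (l.map (fun p => mean (Phi p.1 p.2 K) - mean K)).sum
        ≤ (l.length : ℝ) * (-(Δ / (2 * (DT : ℝ)))) := by
      apply list_sum_le_length_mul
      intro p hp
      obtain ⟨c, hc, rfl⟩ := List.mem_map.1 hp
      have := (hψ c hc).2
      simp only
      linarith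
    have hlen : l.length = centers.length := by simp [hl]
    rw [hlen] at h3
    have h2' : mean (chain l K) = mean K + (l.map (fun p => mean (Phi p.1 p.2 K) - mean K)).sum := h2
    linarith
  -- Gibbs
  have hG := gibbs (reducedDensity_isHermitian Ω B) (reduced_eig_nonneg Ω B)
    (reduced_eig_sum hnΩ B) hKhatH (1 / MM) y
  have htrace : ((reducedDensity Ω B * Khat).trace).re = en K Ω := by
    rw [trace_reduced_mul, hKemb]
    rfl
  rw [htrace] at hG
  -- the partition function
  set D : ℝ := (dimT B q : ℝ) with hD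
  have hDpos : 0 < D := by
    rw [hD]
    exact_mod_cast dimT_pos B
  have hkj : ∀ j, 0 ≤ hKhatH.eigenvalues j - y ∧ hKhatH.eigenvalues j - y ≤ MM := by
    intro j
    constructor
    · have := hjmin j (mem_univ j)
      linarith
    · have h1 := (eigenvector_facts hKhatH j)
      have h2 := hKhub (fun x => (hKhatH.eigenvectorUnitary : Matrix (B → Fin q) (B → Fin q) ℂ) x j)
      rw [h1.1, h1.2, mul_one] at h2
      have h3 := hKhlb ψ₀
      rw [hψ₀n, hψ₀e, mul_one] at h3
      linarith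
  have hexp : ∀ j, Real.exp (-(1 / MM * (hKhatH.eigenvalues j - y)))
      ≤ 1 - (1 / MM * (hKhatH.eigenvalues j - y)) / 2 := by
    intro j
    set u := 1 / MM * (hKhatH.eigenvalues j - y) with hu
    have hu0 : 0 ≤ u := mul_nonneg (by positivity) (hkj j).1
    have hu1 : u ≤ 1 := by
      rw [hu, one_div, inv_mul_le_iff₀ hMM, mul_one]
      exact (hkj j).2
    have h1 : 1 + u ≤ Real.exp u := by
      have := Real.add_one_le_exp u
      linarith
    have h2 : Real.exp (-u) = (Real.exp u)⁻¹ := Real.exp_neg u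
    rw [h2]
    have h3 : (Real.exp u)⁻¹ ≤ (1 + u)⁻¹ := inv_anti₀ (by linarith) h1
    have h4 : (1 + u)⁻¹ ≤ 1 - u / 2 := by
      rw [inv_le_iff_one_le_mul₀ (by linarith)]
      nlinarith
    linarith
  have hsumk : ∑ j, hKhatH.eigenvalues j = D * mean K := by
    have h10 := hKhatH.trace_eq_sum_eigenvalues
    have h11 := trace_ptr B K
    rw [← hKhat, h10, Complex.re_sum] at h11
    rw [hD]
    simpa using h11
  set Z : ℝ := ∑ j, Real.exp (-(1 / MM * (hKhatH.eigenvalues j - y))) with hZ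
  have hZle : Z ≤ D - D * ((mean K - y) / (2 * MM)) := by
    have h1 := Finset.sum_le_sum (fun j (_ : j ∈ (univ : Finset (B → Fin q))) => hexp j)
    have h2 : ∑ j, (1 - (1 / MM * (hKhatH.eigenvalues j - y)) / 2)
        = D - D * ((mean K - y) / (2 * MM)) := by
      have h3 : ∀ j, (1 / MM * (hKhatH.eigenvalues j - y)) / 2
          = (1 / (2 * MM)) * hKhatH.eigenvalues j - (1 / (2 * MM)) * y := by
        intro j
        field_simp
      simp_rw [h3]
      rw [Finset.sum_sub_distrib, Finset.sum_sub_distrib, ← Finset.mul_sum, hsumk]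
      simp only [Finset.sum_const, Finset.card_univ, nsmul_eq_mul, mul_one]
      rw [← hD]
      field_simp
    rw [h2] at h1
    exact h1
  have hZpos : 0 < Z := Finset.sum_pos (fun j _ => Real.exp_pos _) Finset.univ_nonempty
  have hlogZ : Real.log Z ≤ Real.log D - (mean K - y) / (2 * MM) := by
    have h1 : Real.log (Z / D) ≤ Z / D - 1 := Real.log_le_sub_one_of_pos (div_pos hZpos hDpos)
    rw [Real.log_div hZpos.ne' hDpos.ne'] at h1
    have h2 : Z / D ≤ 1 - (mean K - y) / (2 * MM) := by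
      rw [div_le_iff₀ hDpos]
      linarith
    linarith
  have hgainle : ((centers.length : ℝ) * (Δ / (2 * (DT : ℝ)))) / (2 * MM) ≤ (mean K - y) / (2 * MM) :=
    div_le_div_of_nonneg_right (by linarith) (by positivity)
  have hcost : 1 / MM * (en K Ω - y) ≤ 2 * (Nc : ℝ) * J / MM := by
    rw [one_div, inv_mul_eq_div]
    exact div_le_div_of_nonneg_right (by linarith) hMM.le
  have hfinal : entropy Ω B ≤ 1 / MM * (en K Ω - y) + Real.log Z := hG
  rw [hD] at hlogZ
  linarith

end box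


end Vale.Agent.P356
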