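import Mathlib.Analysis.Matrix.Spectrum
import Mathlib.Analysis.CStarAlgebra.Matrix
import Mathlib.Analysis.SpecialFunctions.Log.NegMulLog
import Mathlib.Data.Nat.Dist

open Finset Matrix

namespace Vale.Agent.P356

variable {ι : Type} [Fintype ι] [DecidableEq ι] {q : ℕ}

/-- `embed X m` is the operator `m` on the tensor factors in `X`, tensored with the identity on
all other factors of `(ℂ^q)^{⊗ι}`; basis vectors are indexed by configurations `ι → Fin q`. -/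
def embed (X : Finset ι) (m : Matrix (X → Fin q) (X → Fin q) ℂ) :
    Matrix (ι → Fin q) (ι → Fin q) ℂ :=
  fun σ τ => if ∀ x, x ∉ X → σ x = τ x then m (fun x => σ x) (fun x => τ x) else 0

/-- The configuration equal to `a` on `A` and to `b` off `A`. -/
def glue (A : Finset ι) (a : A → Fin q) (b : {x // x ∉ A} → Fin q) : ι → Fin q :=
  fun x => if h : x ∈ A then a ⟨x, h⟩ else b ⟨x, h⟩

/-- The reduced density matrix `ρ_A = Tr_{ι \ A} |Ω⟩⟨Ω|` of a vector `Ω`. -/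
def reducedDensity (Ω : (ι → Fin q) → ℂ) (A : Finset ι) :
    Matrix (A → Fin q) (A → Fin q) ℂ :=
  fun a a' => ∑ b : {x // x ∉ A} → Fin q, Ω (glue A a b) * star (Ω (glue A a' b))

theorem reducedDensity_isHermitian (Ω : (ι → Fin q) → ℂ) (A : Finset ι) :
    (reducedDensity Ω A).IsHermitian := by
  ext a a'
  simp [reducedDensity, Matrix.conjTranspose_apply, mul_comm]

/-- The entanglement entropy `S_Ω(A) = -Tr ρ_A log ρ_A` (natural logarithm, `0 log 0 = 0`). -/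
noncomputable def entropy (Ω : (ι → Fin q) → ℂ) (A : Finset ι) : ℝ :=
  ∑ i, Real.negMulLog ((reducedDensity_isHermitian Ω A).eigenvalues i)

/-- `Ω` is a unit vector with `H Ω = E₀ Ω` and `H - E₀ I ≥ Δ (I - |Ω⟩⟨Ω|)`. -/
def HasGap (H : Matrix (ι → Fin q) (ι → Fin q) ℂ) (Δ E₀ : ℝ) (Ω : (ι → Fin q) → ℂ) : Prop :=
  ∑ σ, ‖Ω σ‖ ^ 2 = 1 ∧ H *ᵥ Ω = (E₀ : ℂ) • Ω ∧
    ∀ ψ : (ι → Fin q) → ℂ,
      Δ * (∑ σ, ‖ψ σ‖ ^ 2 - ‖∑ σ, star (Ω σ) * ψ σ‖ ^ 2) ≤
        (star ψ ⬝ᵥ (H *ᵥ ψ)).re - E₀ * ∑ σ, ‖ψ σ‖ ^ 2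

/-- The sites of the square lattice `{1,…,L}²` (here `{0,…,L-1}²`). -/
abbrev Site (L : ℕ) := Fin L × Fin L

/-- The `ℓ¹` distance on the lattice. -/
def dist1 {L : ℕ} (x y : Site L) : ℕ :=
  Nat.dist (x.1 : ℕ) (y.1 : ℕ) + Nat.dist (x.2 : ℕ) (y.2 : ℕ)

/-- The nonempty subsets of the lattice of `ℓ¹` diameter at most `R`. -/
def supports (L R : ℕ) : Finset (Finset (Site L)) :=
  univ.filter fun X => X.Nonempty ∧ ∀ x ∈ X, ∀ y ∈ X, dist1 x y ≤ R

/-- The Hamiltonian `H = ∑_X h_X`, with one term for each support `X` of diameter at most `R`. -/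
noncomputable def hamiltonian {L q : ℕ} (R : ℕ)
    (h : ∀ X : Finset (Site L), Matrix (X → Fin q) (X → Fin q) ℂ) :
    Matrix (Site L → Fin q) (Site L → Fin q) ℂ :=
  ∑ X ∈ supports L R, embed X (h X)

/-- The edge boundary of `A`: nearest-neighbour pairs `(x, y)` with `x ∈ A` and `y ∉ A`. -/
def edgeBoundary {L : ℕ} (A : Finset (Site L)) : Finset (Site L × Site L) :=
  univ.filter fun p => p.1 ∈ A ∧ p.2 ∉ A ∧ dist1 p.1 p.2 = 1

end Vale.Agent.P356
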