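import Vale.Agent.P356.Reduced

open Finset Matrix

set_option linter.unusedSectionVars false

namespace Vale.Agent.P356

section opnorm

open scoped Matrix.Norms.L2Operator

variable {α : Type} [Fintype α] [DecidableEq α]

lemma nsq_eq_euclid (φ : α → ℂ) : nsq φ = ‖(WithLp.toLp 2 φ : EuclideanSpace ℂ α)‖ ^ 2 := by
  rw [EuclideanSpace.norm_eq, Real.sq_sqrt (Finset.sum_nonneg (fun _ _ => by positivity))]
  rfl

lemma nsq_mulVec_le (m : Matrix α α ℂ) (φ : α → ℂ) : nsq (m *ᵥ φ) ≤ ‖m‖ ^ 2 * nsq φ := by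
  have h := Matrix.l2_opNorm_mulVec m (WithLp.toLp 2 φ : EuclideanSpace ℂ α)
  rw [nsq_eq_euclid, nsq_eq_euclid]
  calc ‖(WithLp.toLp 2 (m *ᵥ φ) : EuclideanSpace ℂ α)‖ ^ 2
      ≤ (‖m‖ * ‖(WithLp.toLp 2 φ : EuclideanSpace ℂ α)‖) ^ 2 := by
        apply pow_le_pow_left₀ (norm_nonneg _)
        exact h
    _ = _ := by ring

lemma abs_en_le (m : Matrix α α ℂ) (φ : α → ℂ) : |en m φ| ≤ ‖m‖ * nsq φ := by
  have h1 : ‖qf m φ‖ ^ 2 ≤ (‖m‖ * nsq φ) ^ 2 := by
    rw [qf_eq_dotProduct]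
    have h2 := norm_inner_sq_le φ (m *ᵥ φ)
    have h3 := nsq_mulVec_le m φ
    have h4 := nsq_nonneg φ
    calc ‖star φ ⬝ᵥ m *ᵥ φ‖ ^ 2 ≤ nsq φ * nsq (m *ᵥ φ) := h2
      _ ≤ nsq φ * (‖m‖ ^ 2 * nsq φ) := mul_le_mul_of_nonneg_left h3 h4
      _ = _ := by ring
  have h5 : ‖qf m φ‖ ≤ ‖m‖ * nsq φ :=
    abs_le_of_sq_le_sq' h1 (mul_nonneg (norm_nonneg _) (nsq_nonneg φ)) |>.2
  exact (Complex.abs_re_le_norm _).trans h5

lemma LB_of_norm_le {m : Matrix α α ℂ} {J : ℝ} (h : ‖m‖ ≤ J) : LB m (-J) := by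
  intro φ
  have h1 := abs_le.1 (abs_en_le m φ)
  have h2 := mul_le_mul_of_nonneg_right h (nsq_nonneg φ)
  linarith [h1.1]

lemma UB_of_norm_le {m : Matrix α α ℂ} {J : ℝ} (h : ‖m‖ ≤ J) : UB m J := by
  intro φ
  have h1 := abs_le.1 (abs_en_le m φ)
  have h2 := mul_le_mul_of_nonneg_right h (nsq_nonneg φ)
  linarith [h1.2]

end opnorm

section count

variable {L : ℕ}

/-- Integer rectangles in the lattice. -/
def rect (a w b h : ℕ) : Finset (Site L) :=
  univ.filter fun y => a ≤ (y.1 : ℕ) ∧ (y.1 : ℕ) < a + w ∧ b ≤ (y.2 : ℕ) ∧ (y.2 : ℕ) < b + h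

lemma mem_rect {a w b h : ℕ} {y : Site L} :
    y ∈ (rect a w b h : Finset (Site L)) ↔
      a ≤ (y.1 : ℕ) ∧ (y.1 : ℕ) < a + w ∧ b ≤ (y.2 : ℕ) ∧ (y.2 : ℕ) < b + h := by
  simp [rect]

lemma card_rect (a w b h : ℕ) : (rect a w b h : Finset (Site L)).card ≤ w * h := by
  have h1 : (rect a w b h : Finset (Site L)).card ≤ (range w ×ˢ range h).card := by
    apply Finset.card_le_card_of_injOn (fun y => ((y.1 : ℕ) - a, (y.2 : ℕ) - b))
    · intro y hy
      have hy := mem_rect.1 (Finset.mem_coe.1 hy)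
      simp only [Finset.coe_product, Set.mem_prod, Finset.mem_coe, Finset.mem_range]
      omega
    · intro y hy y' hy' he
      have hy := mem_rect.1 (Finset.mem_coe.1 hy)
      have hy' := mem_rect.1 (Finset.mem_coe.1 hy')
      simp only [Prod.mk.injEq] at he
      apply Prod.ext
      · apply Fin.ext
        omega
      · apply Fin.ext
        omega
  simpa using h1

/-- The sup-norm ball of radius `R`. -/
def tileAt (R : ℕ) (c : Site L) : Finset (Site L) :=
  univ.filter fun z => Nat.dist (z.1 : ℕ) (c.1 : ℕ) ≤ R ∧ Nat.dist (z.2 : ℕ) (c.2 : ℕ) ≤ R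

lemma mem_tileAt {R : ℕ} {c z : Site L} :
    z ∈ tileAt R c ↔ Nat.dist (z.1 : ℕ) (c.1 : ℕ) ≤ R ∧ Nat.dist (z.2 : ℕ) (c.2 : ℕ) ≤ R := by
  simp [tileAt]

lemma mem_supports {R : ℕ} {X : Finset (Site L)} :
    X ∈ supports L R ↔ X.Nonempty ∧ ∀ x ∈ X, ∀ y ∈ X, dist1 x y ≤ R := by
  simp [supports]

lemma card_tileAt (R : ℕ) (c : Site L) : (tileAt R c).card ≤ (2 * R + 1) ^ 2 := by
  have h1 : tileAt R c ⊆ rect ((c.1 : ℕ) - R) (2 * R + 1) ((c.2 : ℕ) - R) (2 * R + 1) := by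
    intro z hz
    have hz := mem_tileAt.1 hz
    simp only [Nat.dist] at hz
    rw [mem_rect]
    omega
  calc (tileAt R c).card ≤ _ := Finset.card_le_card h1
    _ ≤ (2 * R + 1) * (2 * R + 1) := card_rect _ _ _ _
    _ = _ := by ring

/-- The number of supports through a site is bounded. -/
lemma card_supports_through (R : ℕ) (y : Site L) :
    ((supports L R).filter (fun X => y ∈ X)).card ≤ 2 ^ ((2 * R + 1) ^ 2) := by
  have h1 : (supports L R).filter (fun X => y ∈ X) ⊆ (tileAt R y).powerset := by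
    intro X hX
    have hX' := Finset.mem_filter.1 hX
    rw [Finset.mem_powerset]
    intro z hz
    have := (mem_supports.1 hX'.1).2 z hz y hX'.2
    simp only [dist1, Nat.dist] at this
    rw [mem_tileAt]
    simp only [Nat.dist]
    omega
  calc _ ≤ (tileAt R y).powerset.card := Finset.card_le_card h1
    _ = 2 ^ (tileAt R y).card := Finset.card_powerset _
    _ ≤ _ := Nat.pow_le_pow_right (by norm_num) (card_tileAt R y)

/-- Counting supports by a covering set of sites. -/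
lemma card_supports_cover (R : ℕ) (T : Finset (Finset (Site L))) (V : Finset (Site L))
    (hT : T ⊆ supports L R) (hV : ∀ X ∈ T, ∃ y ∈ V, y ∈ X) :
    T.card ≤ V.card * 2 ^ ((2 * R + 1) ^ 2) := by
  have h1 : T ⊆ V.biUnion (fun y => (supports L R).filter (fun X => y ∈ X)) := by
    intro X hX
    obtain ⟨y, hy, hyX⟩ := hV X hX
    exact Finset.mem_biUnion.2 ⟨y, hy, Finset.mem_filter.2 ⟨hT hX, hyX⟩⟩
  calc T.card ≤ _ := Finset.card_le_card h1
    _ ≤ _ := Finset.card_biUnion_le_card_mul _ _ _ (fun y _ => card_supports_through R y)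

end count

section boxbound

open scoped Matrix.Norms.L2Operator

variable {L q : ℕ} [NeZero q]

lemma center_lt {i k s R a L : ℕ} (hi : i < k) (hs : s = 4 * R + 1) (h : a + k * s ≤ L) :
    a + 2 * R + i * s < L := by
  have h1 : (i + 1) * s ≤ k * s := Nat.mul_le_mul_right s hi
  rw [Nat.succ_mul] at h1
  omega

/-- The grid of centers of tiles in a box. -/
def gridCenter (R k a b : ℕ) (ha : a + k * (4 * R + 1) ≤ L) (hb : b + k * (4 * R + 1) ≤ L)
    (p : Fin k × Fin k) : Site L :=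
  (⟨a + 2 * R + (p.1 : ℕ) * (4 * R + 1), center_lt p.1.2 rfl ha⟩,
    ⟨b + 2 * R + (p.2 : ℕ) * (4 * R + 1), center_lt p.2.2 rfl hb⟩)

lemma dimT_eq_pow (T : Finset (Site L)) : dimT T q = q ^ T.card := by
  simp [dimT, Fintype.card_fun]

lemma count_inner (R r a b : ℕ) :
    ((supports L R).filter (fun X => id X ⊆ (rect a r b r : Finset (Site L)))).card
      ≤ r * r * 2 ^ ((2 * R + 1) ^ 2) := by
  have h1 := card_supports_cover R ((supports L R).filter
      (fun X => id X ⊆ (rect a r b r : Finset (Site L)))) (rect a r b r)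
    (Finset.filter_subset _ _)
    (by
      intro X hX
      have hX' := Finset.mem_filter.1 hX
      obtain ⟨y, hy⟩ := (mem_supports.1 hX'.1).1
      exact ⟨y, hX'.2 hy, hy⟩)
  calc _ ≤ (rect a r b r : Finset (Site L)).card * 2 ^ ((2 * R + 1) ^ 2) := h1
    _ ≤ _ := Nat.mul_le_mul_right _ (card_rect _ _ _ _)

lemma count_layer (R r a b : ℕ) :
    (rect a R b r ∪ rect (a + r - R) R b r ∪ rect a r b R ∪ rect a r (b + r - R) R :
      Finset (Site L)).card ≤ 4 * r * R := by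
  have h1 := card_rect (L := L) a R b r
  have h2 := card_rect (L := L) (a + r - R) R b r
  have h3 := card_rect (L := L) a r b R
  have h4 := card_rect (L := L) a r (b + r - R) R
  have h5 := Finset.card_union_le (rect a R b r ∪ rect (a + r - R) R b r ∪ rect a r b R : Finset (Site L)) (rect a r (b + r - R) R)
  have h6 := Finset.card_union_le (rect a R b r ∪ rect (a + r - R) R b r : Finset (Site L)) (rect a r b R)
  have h7 := Finset.card_union_le (rect a R b r : Finset (Site L)) (rect (a + r - R) R b r)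
  have e1 : R * r = r * R := Nat.mul_comm _ _
  have e2 : 4 * r * R = r * R + r * R + r * R + r * R := by ring
  rw [e2]
  omega

lemma count_cross (R r a b : ℕ) :
    ((supports L R).filter (fun X => ¬ id X ⊆ (rect a r b r : Finset (Site L)) ∧
      ¬ Disjoint (id X) (rect a r b r : Finset (Site L)))).card
      ≤ 4 * r * R * 2 ^ ((2 * R + 1) ^ 2) := by
  have h1 := card_supports_cover R ((supports L R).filter
      (fun X => ¬ id X ⊆ (rect a r b r : Finset (Site L)) ∧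
        ¬ Disjoint (id X) (rect a r b r : Finset (Site L))))
      (rect a R b r ∪ rect (a + r - R) R b r ∪ rect a r b R ∪ rect a r (b + r - R) R)
    (Finset.filter_subset _ _)
    (by
      intro X hX
      have hX' := Finset.mem_filter.1 hX
      have hXs := mem_supports.1 hX'.1
      obtain ⟨y, hyX, hyB⟩ := Finset.not_disjoint_iff.1 hX'.2.2
      obtain ⟨z, hzX, hzB⟩ := Finset.not_subset.1 hX'.2.1
      refine ⟨y, ?_, hyX⟩
      have hd := hXs.2 y hyX z hzX
      simp only [dist1, Nat.dist] at hd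
      have hyB' := mem_rect.1 hyB
      have hzB' : ¬ (a ≤ (z.1 : ℕ) ∧ (z.1 : ℕ) < a + r ∧ b ≤ (z.2 : ℕ) ∧ (z.2 : ℕ) < b + r) :=
        fun hh => hzB (mem_rect.2 hh)
      simp only [Finset.mem_union, mem_rect]
      omega)
  calc _ ≤ _ := h1
    _ ≤ _ := Nat.mul_le_mul_right _ (count_layer R r a b)

lemma grid_mul_bound {k s : ℕ} (i : Fin k) : (i : ℕ) * s + s ≤ k * s := by
  have h1 : ((i : ℕ) + 1) * s ≤ k * s := Nat.mul_le_mul_right s i.2
  rwa [Nat.succ_mul] at h1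

lemma grid_inside (R k a b : ℕ) (ha : a + k * (4 * R + 1) ≤ L) (hb : b + k * (4 * R + 1) ≤ L)
    (p : Fin k × Fin k) (X : Finset (Site L)) (hX : X ∈ supports L R)
    (hnd : ¬ Disjoint X (tileAt R (gridCenter R k a b ha hb p))) :
    X ⊆ rect a (k * (4 * R + 1)) b (k * (4 * R + 1)) := by
  intro z hz
  obtain ⟨y, hyX, hyT⟩ := Finset.not_disjoint_iff.1 hnd
  have h1 := (mem_supports.1 hX).2 z hz y hyX
  have h2 := mem_tileAt.1 hyT
  simp only [dist1, Nat.dist] at h1 h2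
  simp only [gridCenter] at h2
  have h3 := grid_mul_bound (s := 4 * R + 1) p.1
  have h4 := grid_mul_bound (s := 4 * R + 1) p.2
  apply mem_rect.2
  omega

lemma dist_le_iff {a b R : ℕ} : Nat.dist a b ≤ R ↔ a ≤ b + R ∧ b ≤ a + R := by
  simp only [Nat.dist]
  omega

lemma dist_add_le {a b c d R : ℕ} (h : Nat.dist a b + Nat.dist c d ≤ R) :
    (a ≤ b + R ∧ b ≤ a + R) ∧ (c ≤ d + R ∧ d ≤ c + R) := by
  simp only [Nat.dist] at h
  omega

lemma grid_separated (R k a b : ℕ) (ha : a + k * (4 * R + 1) ≤ L) (hb : b + k * (4 * R + 1) ≤ L)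
    (p p' : Fin k × Fin k) (hne : p ≠ p') (X : Finset (Site L)) (hX : X ∈ supports L R) :
    Disjoint X (tileAt R (gridCenter R k a b ha hb p)) ∨
      Disjoint X (tileAt R (gridCenter R k a b ha hb p')) := by
  by_contra hcon
  push Not at hcon
  obtain ⟨h1, h2⟩ := hcon
  obtain ⟨y, hyX, hyT⟩ := Finset.not_disjoint_iff.1 h1
  obtain ⟨y', hyX', hyT'⟩ := Finset.not_disjoint_iff.1 h2
  have h3 := dist_add_le ((mem_supports.1 hX).2 y hyX y' hyX')
  have h4 := mem_tileAt.1 hyT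
  have h5 := mem_tileAt.1 hyT'
  rw [dist_le_iff, dist_le_iff] at h4 h5
  have hg1 : ((gridCenter R k a b ha hb p).1 : ℕ) = a + 2 * R + (p.1 : ℕ) * (4 * R + 1) := rfl
  have hg2 : ((gridCenter R k a b ha hb p).2 : ℕ) = b + 2 * R + (p.2 : ℕ) * (4 * R + 1) := rfl
  have hg3 : ((gridCenter R k a b ha hb p').1 : ℕ) = a + 2 * R + (p'.1 : ℕ) * (4 * R + 1) := rfl
  have hg4 : ((gridCenter R k a b ha hb p').2 : ℕ) = b + 2 * R + (p'.2 : ℕ) * (4 * R + 1) := rfl
  rw [hg1, hg2] at h4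
  rw [hg3, hg4] at h5
  clear hg1 hg2 hg3 hg4 h1 h2 hyT hyT' hyX hyX'
  have hcases : (p.1 : ℕ) < p'.1 ∨ (p'.1 : ℕ) < p.1 ∨ (p.2 : ℕ) < p'.2 ∨ (p'.2 : ℕ) < p.2 := by
    by_contra hall
    push Not at hall
    apply hne
    have e1 : (p.1 : ℕ) = p'.1 := by omega
    have e2 : (p.2 : ℕ) = p'.2 := by omega
    exact Prod.ext (Fin.ext e1) (Fin.ext e2)
  rcases hcases with hlt | hlt | hlt | hlt
  · have h6 : ((p.1 : ℕ) + 1) * (4 * R + 1) ≤ (p'.1 : ℕ) * (4 * R + 1) := Nat.mul_le_mul_right _ hlt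
    rw [Nat.succ_mul] at h6
    omega
  · have h6 : ((p'.1 : ℕ) + 1) * (4 * R + 1) ≤ (p.1 : ℕ) * (4 * R + 1) := Nat.mul_le_mul_right _ hlt
    rw [Nat.succ_mul] at h6
    omega
  · have h6 : ((p.2 : ℕ) + 1) * (4 * R + 1) ≤ (p'.2 : ℕ) * (4 * R + 1) := Nat.mul_le_mul_right _ hlt
    rw [Nat.succ_mul] at h6
    omega
  · have h6 : ((p'.2 : ℕ) + 1) * (4 * R + 1) ≤ (p.2 : ℕ) * (4 * R + 1) := Nat.mul_le_mul_right _ hlt
    rw [Nat.succ_mul] at h6
    omega

lemma box_arith {k R n' DT' : ℕ} {J Δ : ℝ} (hk : 0 < k) (hJ : 0 < J) (hnpos : 0 < n') (hDT : 0 < DT') :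
    2 * ((4 * (k * (4 * R + 1)) * R * n' : ℕ) : ℝ) * J /
        (2 * (((k * (4 * R + 1)) * (k * (4 * R + 1)) * n' : ℕ) : ℝ) * J)
      = 4 * (R : ℝ) / ((k : ℝ) * (4 * (R : ℝ) + 1)) ∧
    (((k * k : ℕ) : ℝ) * (Δ / (2 * (DT' : ℝ)))) /
        (2 * (2 * (((k * (4 * R + 1)) * (k * (4 * R + 1)) * n' : ℕ) : ℝ) * J))
      = Δ / (8 * (DT' : ℝ) * (4 * (R : ℝ) + 1) ^ 2 * (n' : ℝ) * J) := by
  have hkR : (0 : ℝ) < k := by exact_mod_cast hk
  have hnR : (0 : ℝ) < n' := by exact_mod_cast hnpos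
  have hDR : (0 : ℝ) < DT' := by exact_mod_cast hDT
  have hsR : (0 : ℝ) < 4 * (R : ℝ) + 1 := by positivity
  constructor
  · push_cast
    field_simp
  · push_cast
    field_simp
    ring

theorem box_entropy_lattice (R : ℕ) (hq2 : 2 ≤ q) {J Δ : ℝ} (hJ : 0 < J) (hΔ : 0 < Δ)
    {h : ∀ X : Finset (Site L), Matrix (X → Fin q) (X → Fin q) ℂ} {E₀ : ℝ}
    {Ω : (Site L → Fin q) → ℂ}
    (hh : ∀ X ∈ supports L R, (h X).IsHermitian ∧ ‖h X‖ ≤ J)
    (hgap : HasGap (hamiltonian R h) Δ E₀ Ω)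
    (k : ℕ) (hk : 0 < k) (a b : ℕ) (ha : a + k * (4 * R + 1) ≤ L) (hb : b + k * (4 * R + 1) ≤ L) :
    entropy Ω (rect a (k * (4 * R + 1)) b (k * (4 * R + 1))) ≤
      Real.log (dimT (rect a (k * (4 * R + 1)) b (k * (4 * R + 1)) : Finset (Site L)) q)
      + 4 * (R : ℝ) / ((k : ℝ) * (4 * (R : ℝ) + 1))
      - Δ / (8 * ((q ^ ((2 * R + 1) ^ 2) : ℕ) : ℝ) * (4 * (R : ℝ) + 1) ^ 2 *
          ((2 ^ ((2 * R + 1) ^ 2) : ℕ) : ℝ) * J) := by
  have hqpos : 0 < q := by omega
  have hDTpos : 0 < q ^ ((2 * R + 1) ^ 2) := by positivity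
  have hnpos : 0 < 2 ^ ((2 * R + 1) ^ 2) := by positivity
  have hrpos : 0 < k * (4 * R + 1) := Nat.mul_pos hk (by omega)
  have hMM : (0 : ℝ) < 2 * (((k * (4 * R + 1)) * (k * (4 * R + 1)) * 2 ^ ((2 * R + 1) ^ 2) : ℕ) : ℝ) * J := by
    have : (0 : ℝ) < (((k * (4 * R + 1)) * (k * (4 * R + 1)) * 2 ^ ((2 * R + 1) ^ 2) : ℕ) : ℝ) := by
      exact_mod_cast Nat.mul_pos (Nat.mul_pos hrpos hrpos) hnpos
    positivity
  have key := box_entropy_bound hΔ.le hq2 hgap (supports L R) id (fun X => embed X (h X)) rfl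
    (fun X _ => actsOn_embed X (h X)) (fun X hX => embed_isHermitian X (hh X hX).1) hJ.le
    (fun X hX => LB_embed X (LB_of_norm_le (hh X hX).2))
    (fun X hX => UB_embed X (UB_of_norm_le (hh X hX).2))
    (rect a (k * (4 * R + 1)) b (k * (4 * R + 1)))
    (4 * (k * (4 * R + 1)) * R * 2 ^ ((2 * R + 1) ^ 2))
    ((k * (4 * R + 1)) * (k * (4 * R + 1)) * 2 ^ ((2 * R + 1) ^ 2))
    (count_cross R _ a b) (count_inner R _ a b)
    (((List.finRange k).product (List.finRange k)).map (gridCenter R k a b ha hb)) (tileAt R)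
    (by
      intro c _
      rw [mem_tileAt]
      simp [Nat.dist_self])
    (by
      intro c _ X hX hcX z hz
      have := (mem_supports.1 hX).2 z hz c hcX
      simp only [dist1, Nat.dist] at this
      rw [mem_tileAt]
      simp only [Nat.dist]
      omega)
    (by
      intro c hc X hX hnd
      obtain ⟨p, -, rfl⟩ := List.mem_map.1 hc
      exact grid_inside R k a b ha hb p X hX hnd)
    (by
      rw [List.pairwise_map]
      have hnd : ((List.finRange k).product (List.finRange k)).Nodup :=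
        (List.nodup_finRange k).product (List.nodup_finRange k)
      refine hnd.imp ?_
      intro p p' hne X hX
      exact grid_separated R k a b ha hb p p' hne X hX)
    (q ^ ((2 * R + 1) ^ 2))
    (by
      intro c _
      rw [dimT_eq_pow]
      exact Nat.pow_le_pow_right hqpos (card_tileAt R c))
    hDTpos _ hMM (le_refl _)
  have hlen : ((((List.finRange k).product (List.finRange k)).map (gridCenter R k a b ha hb)).length : ℝ)
      = ((k * k : ℕ) : ℝ) := by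
    have hl : ((List.finRange k).product (List.finRange k)).length = k * k := by
      simp [List.product]
    rw [List.length_map, hl]
  rw [hlen] at key
  have harith := box_arith (k := k) (R := R) (n' := 2 ^ ((2 * R + 1) ^ 2)) (DT' := q ^ ((2 * R + 1) ^ 2))
    (J := J) (Δ := Δ) hk hJ hnpos hDTpos
  rw [harith.1, harith.2] at key
  exact key

end boxbound

end Vale.Agent.P356
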