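import Vale.Agent.P356.Packing

open Finset Matrix

set_option linter.unusedSectionVars false

namespace Vale.Agent.P356

section cells

/-- The coordinate of the cell containing `t`: cells have side `r`, except the last one. -/
def cc (r w t : ℕ) : ℕ := min (t / r) (w - 1)

lemma cc_mono (r w : ℕ) : Monotone (cc r w) :=
  fun _ _ hab => min_le_min_right _ (Nat.div_le_div_right hab)

lemma cc_box {r w i t : ℕ} (hr : 0 < r) (hi : i < w) (h1 : i * r ≤ t) (h2 : t < i * r + r) :
    cc r w t = i := by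
  have h3 : t / r = i := by
    apply Nat.div_eq_of_lt_le h1
    rw [Nat.succ_mul]
    exact h2
  unfold cc
  rw [h3]
  omega

lemma cc_lt {r w t : ℕ} (hw : 0 < w) : cc r w t < w := by
  unfold cc
  omega

lemma cc_fiber {r L t : ℕ} (hr : 0 < r) (hL : r ≤ L) (ht : t < L) :
    cc r (L / r) t * r ≤ t ∧ t < cc r (L / r) t * r + 2 * r := by
  have hw : 0 < L / r := Nat.div_pos hL hr
  have h1 : t / r * r ≤ t := Nat.div_mul_le_self t r
  have h2 : t < (t / r + 1) * r := by
    rw [mul_comm]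
    exact Nat.lt_mul_div_succ t hr
  have h3 : L < (L / r + 1) * r := by
    rw [mul_comm]
    exact Nat.lt_mul_div_succ L hr
  have h4 : t / r ≤ L / r := Nat.div_le_div_right ht.le
  unfold cc
  rcases le_total (t / r) (L / r - 1) with h5 | h5
  · rw [min_eq_left h5]
    rw [Nat.succ_mul] at h2
    omega
  · rw [min_eq_right h5]
    have h6 : (L / r - 1) * r ≤ t / r * r := Nat.mul_le_mul_right r h5
    have h7 : L / r + 1 = (L / r - 1) + 2 := by omega
    rw [h7, Nat.add_mul] at h3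
    omega

end cells

section final

open scoped Matrix.Norms.L2Operator

variable {L q : ℕ} [NeZero q]

/-- Every subset of a large lattice loses entropy in proportion to the number of boxes it contains. -/
theorem count_good (A : Finset (Site L)) {r : ℕ} (hr : 0 < r) (hL : r ≤ L) :
    ∃ G : Finset (ℕ × ℕ),
      (∀ g ∈ G, g.1 * r + r ≤ L ∧ g.2 * r + r ≤ L) ∧
      (∀ g ∈ G, (rect (g.1 * r) r (g.2 * r) r : Finset (Site L)) ⊆ A) ∧
      (∀ g ∈ G, ∀ g' ∈ G, g ≠ g' → Disjoint (rect (g.1 * r) r (g.2 * r) r : Finset (Site L))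
        (rect (g'.1 * r) r (g'.2 * r) r)) ∧
      A.card ≤ 2 * r * (2 * r) * (G.card + (edgeBoundary A).card) := by
  classical
  have hw : 0 < L / r := Nat.div_pos hL hr
  set w := L / r with hw'
  let cell : Site L → ℕ × ℕ := fun x => (cc r w x.1, cc r w x.2)
  let G : Finset (ℕ × ℕ) :=
    ((range w) ×ˢ (range w)).filter (fun g => ∀ x : Site L, cell x = g → x ∈ A)
  have hmemG : ∀ g, g ∈ G ↔ (g.1 < w ∧ g.2 < w) ∧ ∀ x : Site L, cell x = g → x ∈ A := by
    intro g
    simp [G]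
  have hcell : ∀ g : ℕ × ℕ, g.1 < w → g.2 < w → ∀ x : Site L,
      x ∈ (rect (g.1 * r) r (g.2 * r) r : Finset (Site L)) → cell x = g := by
    intro g h1 h2 x hx
    have hx' := mem_rect.1 hx
    exact Prod.ext (cc_box hr h1 hx'.1 hx'.2.1) (cc_box hr h2 hx'.2.2.1 hx'.2.2.2)
  refine ⟨G, ?_, ?_, ?_, ?_⟩
  · intro g hg
    have hg' := ((hmemG g).1 hg).1
    have hmul : w * r ≤ L := Nat.div_mul_le_self L r
    have h1 : (g.1 + 1) * r ≤ w * r := Nat.mul_le_mul_right r hg'.1
    have h2 : (g.2 + 1) * r ≤ w * r := Nat.mul_le_mul_right r hg'.2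
    rw [Nat.succ_mul] at h1 h2
    omega
  · intro g hg x hx
    have hg' := (hmemG g).1 hg
    exact hg'.2 x (hcell g hg'.1.1 hg'.1.2 x hx)
  · intro g hg g' hg' hne
    rw [Finset.disjoint_left]
    intro x hx hx'
    have h1 := (hmemG g).1 hg
    have h2 := (hmemG g').1 hg'
    exact hne ((hcell g h1.1.1 h1.1.2 x hx).symm.trans (hcell g' h2.1.1 h2.1.2 x hx'))
  · -- image of the cell map
    have himg : A.image cell ⊆ G ∪ (edgeBoundary A).image (fun p => cell p.1) := by
      intro g hg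
      obtain ⟨x, hx, rfl⟩ := Finset.mem_image.1 hg
      rw [Finset.mem_union]
      by_cases hgood : ∀ y : Site L, cell y = cell x → y ∈ A
      · left
        exact (hmemG _).2 ⟨⟨cc_lt hw, cc_lt hw⟩, hgood⟩
      · right
        push Not at hgood
        obtain ⟨y, hy1, hy2⟩ := hgood
        have hy1' := Prod.ext_iff.1 hy1
        obtain ⟨p, hp, hp1, hp2⟩ := exists_boundary A (cc r w) (cc_mono r w) x y hx hy2
          hy1'.1.symm hy1'.2.symm
        exact Finset.mem_image.2 ⟨p, hp, Prod.ext hp1 hp2⟩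
    have hfib : ∀ g ∈ A.image cell, (A.filter (fun x => cell x = g)).card ≤ 2 * r * (2 * r) := by
      intro g _
      have hsub : A.filter (fun x => cell x = g) ⊆ rect (g.1 * r) (2 * r) (g.2 * r) (2 * r) := by
        intro x hx
        have hx' := (Finset.mem_filter.1 hx).2
        have h1 := cc_fiber (t := (x.1 : ℕ)) hr hL x.1.2
        have h2 := cc_fiber (t := (x.2 : ℕ)) hr hL x.2.2
        have e1 : cc r (L / r) (x.1 : ℕ) = g.1 := by
          rw [← hx']
        have e2 : cc r (L / r) (x.2 : ℕ) = g.2 := by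
          rw [← hx']
        rw [e1] at h1
        rw [e2] at h2
        exact mem_rect.2 ⟨h1.1, h1.2, h2.1, h2.2⟩
      exact (Finset.card_le_card hsub).trans (card_rect _ _ _ _)
    have h1 := Finset.card_le_mul_card_image A (2 * r * (2 * r)) hfib
    have h2 : (A.image cell).card ≤ G.card + (edgeBoundary A).card :=
      (Finset.card_le_card himg).trans ((Finset.card_union_le _ _).trans
        (Nat.add_le_add_left Finset.card_image_le _))
    exact h1.trans (Nat.mul_le_mul_left _ h2)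

/-- The one-sided bound on a large lattice. -/
theorem large_bound (R : ℕ) (hq2 : 2 ≤ q) {J Δ : ℝ} (hJ : 0 < J) (hΔ : 0 < Δ)
    {h : ∀ X : Finset (Site L), Matrix (X → Fin q) (X → Fin q) ℂ} {E₀ : ℝ}
    {Ω : (Site L → Fin q) → ℂ}
    (hh : ∀ X ∈ supports L R, (h X).IsHermitian ∧ ‖h X‖ ≤ J)
    (hgap : HasGap (hamiltonian R h) Δ E₀ Ω)
    (hL : rr (kappa q R J Δ) R ≤ L) (A : Finset (Site L)) :
    entropy Ω A ≤ (A.card : ℝ) * Real.log q
      - kappa q R J Δ / (4 * ((rr (kappa q R J Δ) R : ℕ) : ℝ) ^ 2) * (A.card : ℝ)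
      + kappa q R J Δ * ((edgeBoundary A).card : ℝ) := by
  have hκ : 0 < kappa q R J Δ := kappa_pos (by omega) hJ hΔ
  have hr := rr_pos (kappa q R J Δ) R
  obtain ⟨G, hG1, hG2, hG3, hG4⟩ := count_good (L := L) A hr hL
  have hpack := entropy_packing (q := q) (Ω := Ω) hgap.nsq_eq A G
    (fun g => rect (g.1 * rr (kappa q R J Δ) R) (rr (kappa q R J Δ) R)
      (g.2 * rr (kappa q R J Δ) R) (rr (kappa q R J Δ) R))
    (kappa q R J Δ) hG3 hG2
    (fun g hg => box_deficit R hq2 hJ hΔ hh hgap _ _ (hG1 g hg).1 (hG1 g hg).2)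
  have hrR : (0 : ℝ) < ((rr (kappa q R J Δ) R : ℕ) : ℝ) := by exact_mod_cast hr
  have hcount : (A.card : ℝ) ≤ 4 * ((rr (kappa q R J Δ) R : ℕ) : ℝ) ^ 2 *
      ((G.card : ℝ) + ((edgeBoundary A).card : ℝ)) := by
    have : ((A.card : ℕ) : ℝ) ≤ ((2 * rr (kappa q R J Δ) R * (2 * rr (kappa q R J Δ) R) *
        (G.card + (edgeBoundary A).card) : ℕ) : ℝ) := by exact_mod_cast hG4
    push_cast at this
    nlinarith
  have h4r : (0 : ℝ) < 4 * ((rr (kappa q R J Δ) R : ℕ) : ℝ) ^ 2 := by positivity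
  have h5 : (A.card : ℝ) / (4 * ((rr (kappa q R J Δ) R : ℕ) : ℝ) ^ 2) ≤
      (G.card : ℝ) + ((edgeBoundary A).card : ℝ) := by
    rw [div_le_iff₀' h4r]
    exact hcount
  have h6 : kappa q R J Δ / (4 * ((rr (kappa q R J Δ) R : ℕ) : ℝ) ^ 2) * (A.card : ℝ)
      = kappa q R J Δ * ((A.card : ℝ) / (4 * ((rr (kappa q R J Δ) R : ℕ) : ℝ) ^ 2)) := by
    ring
  rw [h6]
  have h7 := mul_le_mul_of_nonneg_left h5 hκ.le
  rw [mul_add] at h7
  linarith

/-- The one-sided bound on a small lattice. -/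
theorem small_bound {r : ℕ} (hq2 : 2 ≤ q) {Ω : (Site L → Fin q) → ℂ} (hΩ : nsq Ω = 1)
    (hL : L < r) (A : Finset (Site L)) :
    entropy Ω A ≤ ((r : ℝ) ^ 2 * Real.log q) * ((edgeBoundary A).card : ℝ) := by
  have hlog : 0 ≤ Real.log q := Real.log_natCast_nonneg q
  by_cases hex : ∃ x ∈ A, ∃ y, y ∉ A
  · obtain ⟨x, hx, y, hy⟩ := hex
    obtain ⟨p, hp, -, -⟩ := exists_boundary A (fun _ => 0) (fun _ _ _ => le_refl _) x y hx hy rfl rfl
    have hcard : 1 ≤ (edgeBoundary A).card := Finset.card_pos.2 ⟨p, hp⟩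
    have hcardR : (1 : ℝ) ≤ ((edgeBoundary A).card : ℝ) := by exact_mod_cast hcard
    have h1 := entropy_le_card_log hΩ A
    have h2 : A.card ≤ r ^ 2 := by
      calc A.card ≤ (Finset.univ : Finset (Site L)).card := Finset.card_le_card (Finset.subset_univ _)
        _ = L * L := by simp
        _ ≤ r * r := Nat.mul_le_mul hL.le hL.le
        _ = r ^ 2 := by ring
    have h3 : (A.card : ℝ) ≤ (r : ℝ) ^ 2 := by exact_mod_cast h2
    have h4 : 0 ≤ (r : ℝ) ^ 2 * Real.log q := by positivity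
    calc entropy Ω A ≤ (A.card : ℝ) * Real.log q := h1
      _ ≤ (r : ℝ) ^ 2 * Real.log q := mul_le_mul_of_nonneg_right h3 hlog
      _ = ((r : ℝ) ^ 2 * Real.log q) * 1 := by ring
      _ ≤ _ := mul_le_mul_of_nonneg_left hcardR h4
  · push Not at hex
    have hrhs : 0 ≤ ((r : ℝ) ^ 2 * Real.log q) * ((edgeBoundary A).card : ℝ) := by positivity
    have hempty : entropy Ω (∅ : Finset (Site L)) ≤ 0 := by
      have := entropy_le_card_log hΩ (∅ : Finset (Site L))
      simpa using this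
    by_cases hne : A.Nonempty
    · obtain ⟨x, hx⟩ := hne
      have hA : A = (∅ : Finset (Site L))ᶜ := by
        ext y
        simp [hex x hx y]
      rw [hA, entropy_compl]
      have e : (∅ : Finset (Site L))ᶜ = (∅ : Finset (Site L))ᶜ := rfl
      exact hempty.trans (by rw [← hA]; exact hrhs)
    · rw [Finset.not_nonempty_iff_eq_empty] at hne
      rw [hne] at hrhs ⊢
      exact hempty.trans hrhs

end final

/-- **Sub-maximal volume law.** -/
theorem submaximal_volume_law {q : ℕ} (R : ℕ) (hq2 : 2 ≤ q) {J Δ : ℝ} (hJ : 0 < J) (hΔ : 0 < Δ) :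
    ∃ ε C : ℝ, 0 < ε ∧ ε ≤ 1 ∧ 0 ≤ C ∧
      ∀ (L : ℕ) (h : ∀ X : Finset (Site L), Matrix (X → Fin q) (X → Fin q) ℂ) (E₀ : ℝ)
        (Ω : (Site L → Fin q) → ℂ),
        (open scoped Matrix.Norms.L2Operator in
          ∀ X ∈ supports L R, (h X).IsHermitian ∧ ‖h X‖ ≤ J) →
        HasGap (hamiltonian R h) Δ E₀ Ω →
        ∀ A : Finset (Site L),
          entropy Ω A ≤ (1 - ε) * Real.log q * ((min A.card Aᶜ.card : ℕ) : ℝ)
            + C * ((edgeBoundary A).card : ℝ) := by
  haveI : NeZero q := ⟨by omega⟩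
  have hκ : 0 < kappa q R J Δ := kappa_pos (by omega) hJ hΔ
  have hlog : 0 < Real.log q := Real.log_pos (by exact_mod_cast (by omega : 1 < q))
  set κ := kappa q R J Δ with hκdef
  set r := rr κ R with hrdef
  have hr : 0 < r := rr_pos κ R
  have hrR : (0 : ℝ) < (r : ℝ) := by exact_mod_cast hr
  let ε : ℝ := min (κ / (4 * (r : ℝ) ^ 2 * Real.log q)) 1
  have hεpos : 0 < ε := lt_min (by positivity) one_pos
  have hε1 : ε ≤ 1 := min_le_right _ _
  have hε2 : ε ≤ κ / (4 * (r : ℝ) ^ 2 * Real.log q) := min_le_left _ _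
  refine ⟨ε, κ + (r : ℝ) ^ 2 * Real.log q, hεpos, hε1, by positivity, ?_⟩
  intro L h E₀ Ω hh hgap A
  have hnΩ := hgap.nsq_eq
  -- one-sided bound for all subsets
  have hone : ∀ B : Finset (Site L), entropy Ω B ≤ (1 - ε) * Real.log q * (B.card : ℝ)
      + (κ + (r : ℝ) ^ 2 * Real.log q) * ((edgeBoundary B).card : ℝ) := by
    intro B
    have hB : (0 : ℝ) ≤ (B.card : ℝ) := Nat.cast_nonneg _
    have hdB : (0 : ℝ) ≤ ((edgeBoundary B).card : ℝ) := Nat.cast_nonneg _
    have hr2 : 0 ≤ (r : ℝ) ^ 2 * Real.log q := by positivity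
    have h1ε : 0 ≤ (1 - ε) * Real.log q * (B.card : ℝ) :=
      mul_nonneg (mul_nonneg (by linarith) hlog.le) hB
    rcases le_or_gt r L with hL | hL
    · have hmain := large_bound R hq2 hJ hΔ hh hgap hL B
      have h2 : ε * Real.log q ≤ κ / (4 * (r : ℝ) ^ 2) := by
        have := mul_le_mul_of_nonneg_right hε2 hlog.le
        have e : κ / (4 * (r : ℝ) ^ 2 * Real.log q) * Real.log q = κ / (4 * (r : ℝ) ^ 2) := by
          field_simp
        rwa [e] at this
      have h3 := mul_le_mul_of_nonneg_right h2 hB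
      have h4 := mul_nonneg hr2 hdB
      have e5 : (κ + (r : ℝ) ^ 2 * Real.log q) * ((edgeBoundary B).card : ℝ)
          = κ * ((edgeBoundary B).card : ℝ) + (r : ℝ) ^ 2 * Real.log q * ((edgeBoundary B).card : ℝ) := by
        ring
      have e6 : (1 - ε) * Real.log q * (B.card : ℝ) = (B.card : ℝ) * Real.log q
          - ε * Real.log q * (B.card : ℝ) := by ring
      rw [e5, e6]
      linarith
    · have hsmall := small_bound hq2 hnΩ hL B
      have h4 := mul_nonneg hκ.le hdB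
      have e5 : (κ + (r : ℝ) ^ 2 * Real.log q) * ((edgeBoundary B).card : ℝ)
          = κ * ((edgeBoundary B).card : ℝ) + (r : ℝ) ^ 2 * Real.log q * ((edgeBoundary B).card : ℝ) := by
        ring
      rw [e5]
      linarith
  rcases le_total A.card Aᶜ.card with hle | hle
  · rw [min_eq_left hle]
    exact hone A
  · rw [min_eq_right hle]
    have h1 := hone Aᶜ
    rw [entropy_compl, card_edgeBoundary_compl] at h1
    exact h1

end Vale.Agent.P356
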