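import Vale.Agent.P356.Lattice

open Finset Matrix

set_option linter.unusedSectionVars false

namespace Vale.Agent.P356

section choice

open scoped Matrix.Norms.L2Operator

variable {L q : ℕ} [NeZero q]

/-- The entropy deficit of a box. -/
noncomputable def kappa (q R : ℕ) (J Δ : ℝ) : ℝ :=
  Δ / (16 * ((q ^ ((2 * R + 1) ^ 2) : ℕ) : ℝ) * (4 * (R : ℝ) + 1) ^ 2 *
    ((2 ^ ((2 * R + 1) ^ 2) : ℕ) : ℝ) * J)

lemma kappa_pos {q R : ℕ} {J Δ : ℝ} (hq : 0 < q) (hJ : 0 < J) (hΔ : 0 < Δ) :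
    0 < kappa q R J Δ := by
  have h1 : (0 : ℝ) < ((q ^ ((2 * R + 1) ^ 2) : ℕ) : ℝ) := by
    exact_mod_cast Nat.pow_pos hq
  have h2 : (0 : ℝ) < ((2 ^ ((2 * R + 1) ^ 2) : ℕ) : ℝ) := by
    exact_mod_cast Nat.pow_pos (by norm_num)
  unfold kappa
  positivity

/-- The number of tiles per side. -/
noncomputable def kk (κ : ℝ) (R : ℕ) : ℕ := ⌈4 * (R : ℝ) / κ⌉₊ + 1

lemma kk_pos (κ : ℝ) (R : ℕ) : 0 < kk κ R := by
  unfold kk
  omega

lemma kk_bound {κ : ℝ} (hκ : 0 < κ) (R : ℕ) :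
    4 * (R : ℝ) / ((kk κ R : ℝ) * (4 * (R : ℝ) + 1)) ≤ κ := by
  have h1 : 4 * (R : ℝ) / κ ≤ (kk κ R : ℝ) := by
    unfold kk
    push_cast
    have := Nat.le_ceil (4 * (R : ℝ) / κ)
    linarith
  have hk : (0 : ℝ) < (kk κ R : ℝ) := by exact_mod_cast kk_pos κ R
  have hs : (1 : ℝ) ≤ 4 * (R : ℝ) + 1 := by
    have : (0 : ℝ) ≤ (R : ℝ) := Nat.cast_nonneg _
    linarith
  have h2 : 4 * (R : ℝ) ≤ κ * (kk κ R : ℝ) := by
    rwa [div_le_iff₀' hκ] at h1
  rw [div_le_iff₀ (by positivity)]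
  have h3 : κ * (kk κ R : ℝ) ≤ κ * (kk κ R : ℝ) * (4 * (R : ℝ) + 1) :=
    le_mul_of_one_le_right (by positivity) hs
  nlinarith

/-- Side length of the box. -/
noncomputable def rr (κ : ℝ) (R : ℕ) : ℕ := kk κ R * (4 * R + 1)

lemma rr_pos (κ : ℝ) (R : ℕ) : 0 < rr κ R := Nat.mul_pos (kk_pos κ R) (by omega)

theorem box_deficit (R : ℕ) (hq2 : 2 ≤ q) {J Δ : ℝ} (hJ : 0 < J) (hΔ : 0 < Δ)
    {h : ∀ X : Finset (Site L), Matrix (X → Fin q) (X → Fin q) ℂ} {E₀ : ℝ}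
    {Ω : (Site L → Fin q) → ℂ}
    (hh : ∀ X ∈ supports L R, (h X).IsHermitian ∧ ‖h X‖ ≤ J)
    (hgap : HasGap (hamiltonian R h) Δ E₀ Ω)
    (a b : ℕ) (ha : a + rr (kappa q R J Δ) R ≤ L) (hb : b + rr (kappa q R J Δ) R ≤ L) :
    entropy Ω (rect a (rr (kappa q R J Δ) R) b (rr (kappa q R J Δ) R)) ≤
      ((rect a (rr (kappa q R J Δ) R) b (rr (kappa q R J Δ) R) : Finset (Site L)).card : ℝ)
        * Real.log q - kappa q R J Δ := by
  have hκ : 0 < kappa q R J Δ := kappa_pos (by omega) hJ hΔ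
  have key : entropy Ω (rect a (rr (kappa q R J Δ) R) b (rr (kappa q R J Δ) R)) ≤
      Real.log (dimT (rect a (rr (kappa q R J Δ) R) b (rr (kappa q R J Δ) R) : Finset (Site L)) q)
      + 4 * (R : ℝ) / ((kk (kappa q R J Δ) R : ℝ) * (4 * (R : ℝ) + 1))
      - Δ / (8 * ((q ^ ((2 * R + 1) ^ 2) : ℕ) : ℝ) * (4 * (R : ℝ) + 1) ^ 2 *
          ((2 ^ ((2 * R + 1) ^ 2) : ℕ) : ℝ) * J) :=
    box_entropy_lattice R hq2 hJ hΔ hh hgap (kk (kappa q R J Δ) R) (kk_pos _ R) a b ha hb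
  have hk := kk_bound hκ R
  have e1 : Δ / (8 * ((q ^ ((2 * R + 1) ^ 2) : ℕ) : ℝ) * (4 * (R : ℝ) + 1) ^ 2 *
      ((2 ^ ((2 * R + 1) ^ 2) : ℕ) : ℝ) * J) = 2 * kappa q R J Δ := by
    have h1 : (0 : ℝ) < ((q ^ ((2 * R + 1) ^ 2) : ℕ) : ℝ) := by
      exact_mod_cast Nat.pow_pos (by omega)
    have h2 : (0 : ℝ) < ((2 ^ ((2 * R + 1) ^ 2) : ℕ) : ℝ) := by
      exact_mod_cast Nat.pow_pos (by norm_num)
    unfold kappa
    have h3 : (0 : ℝ) < 4 * (R : ℝ) + 1 := by positivity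
    field_simp
    ring
  rw [e1] at key
  have e2 : Real.log (dimT (rect a (rr (kappa q R J Δ) R) b
      (rr (kappa q R J Δ) R) : Finset (Site L)) q)
      = ((rect a (rr (kappa q R J Δ) R) b (rr (kappa q R J Δ) R) : Finset (Site L)).card : ℝ)
        * Real.log q := by
    rw [dimT_eq_pow, Nat.cast_pow, Real.log_pow]
  rw [e2] at key
  linarith

end choice

section path

/-- Discrete intermediate value step. -/
lemma nat_step (P : ℕ → Prop) {s t : ℕ} (hst : s ≤ t) (hs : P s) (ht : ¬ P t) :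
    ∃ u, s ≤ u ∧ u < t ∧ P u ∧ ¬ P (u + 1) := by
  induction t, hst using Nat.le_induction with
  | base => exact absurd hs ht
  | succ t hst ih =>
    by_cases hPt : P t
    · exact ⟨t, hst, Nat.lt_succ_self t, hPt, ht⟩
    · obtain ⟨u, h1, h2, h3, h4⟩ := ih hPt
      exact ⟨u, h1, Nat.lt_succ_of_lt h2, h3, h4⟩

variable {L : ℕ}

lemma line_step (P : Fin L → Prop) (a b : Fin L) (ha : P a) (hb : ¬ P b) :
    ∃ u v : Fin L, P u ∧ ¬ P v ∧ Nat.dist u v = 1 ∧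
      (((a : ℕ) ≤ u ∧ (u : ℕ) ≤ b) ∨ ((b : ℕ) ≤ u ∧ (u : ℕ) ≤ a)) := by
  rcases le_total (a : ℕ) b with hab | hab
  · obtain ⟨u, h1, h2, h3, h4⟩ := nat_step (fun t => ∀ h : t < L, P ⟨t, h⟩) hab
      (fun _ => ha) (fun h => hb (h b.2))
    have hu : u < L := by
      clear h3 h4
      omega
    have hv : u + 1 < L := by
      clear h3 h4
      omega
    refine ⟨⟨u, hu⟩, ⟨u + 1, hv⟩, h3 hu, fun hh => h4 (fun _ => hh), ?_, Or.inl ⟨h1, h2.le⟩⟩
    simp only [Nat.dist]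
    omega
  · obtain ⟨u, h1, h2, h3, h4⟩ := nat_step (fun t => ∀ h : t < L, ¬ P ⟨t, h⟩) hab
      (fun _ => hb) (fun h => h a.2 ha)
    have hu : u < L := by
      clear h3 h4
      omega
    have hv : u + 1 < L := by
      clear h3 h4
      omega
    have h5 : P ⟨u + 1, hv⟩ := by
      by_contra hh
      exact h4 (fun _ => hh)
    refine ⟨⟨u + 1, hv⟩, ⟨u, hu⟩, h5, h3 hu, ?_, Or.inr ⟨show (b : ℕ) ≤ u + 1 by omega, show u + 1 ≤ (a : ℕ) by omega⟩⟩
    simp only [Nat.dist]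
    omega

/-- A pair `x ∈ A`, `y ∉ A` in the same cell produces a boundary pair in that cell. -/
lemma exists_boundary (A : Finset (Site L)) (c : ℕ → ℕ) (hc : Monotone c)
    (x y : Site L) (hx : x ∈ A) (hy : y ∉ A)
    (h1 : c (x.1 : ℕ) = c (y.1 : ℕ)) (h2 : c (x.2 : ℕ) = c (y.2 : ℕ)) :
    ∃ p ∈ edgeBoundary A, c (p.1.1 : ℕ) = c (x.1 : ℕ) ∧ c (p.1.2 : ℕ) = c (x.2 : ℕ) := by
  have mem_bd : ∀ p : Site L × Site L, p ∈ edgeBoundary A ↔
      p.1 ∈ A ∧ p.2 ∉ A ∧ dist1 p.1 p.2 = 1 := by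
    intro p
    simp [edgeBoundary]
  have between : ∀ (a b u : ℕ), c a = c b → ((a ≤ u ∧ u ≤ b) ∨ (b ≤ u ∧ u ≤ a)) → c u = c a := by
    intro a b u hab hu
    rcases hu with ⟨h3, h4⟩ | ⟨h3, h4⟩
    · exact le_antisymm (by rw [hab]; exact hc h4) (hc h3)
    · exact le_antisymm (hc h4) (by rw [hab]; exact hc h3)
  by_cases hm : (y.1, x.2) ∈ A
  · obtain ⟨u, v, h3, h4, h5, h6⟩ := line_step (fun t => (y.1, t) ∈ A) x.2 y.2 hm hy
    refine ⟨((y.1, u), (y.1, v)), ?_, h1.symm, between _ _ _ h2 h6⟩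
    rw [mem_bd]
    refine ⟨h3, h4, ?_⟩
    simp [dist1, h5]
  · obtain ⟨u, v, h3, h4, h5, h6⟩ := line_step (fun t => (t, x.2) ∈ A) x.1 y.1 hx hm
    refine ⟨((u, x.2), (v, x.2)), ?_, between _ _ _ h1 h6, rfl⟩
    rw [mem_bd]
    refine ⟨h3, h4, ?_⟩
    simp [dist1, h5]

lemma card_edgeBoundary_compl (A : Finset (Site L)) :
    (edgeBoundary Aᶜ).card = (edgeBoundary A).card := by
  have mem_bd : ∀ (B : Finset (Site L)) (p : Site L × Site L), p ∈ edgeBoundary B ↔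
      p.1 ∈ B ∧ p.2 ∉ B ∧ dist1 p.1 p.2 = 1 := by
    intro B p
    simp [edgeBoundary]
  refine Finset.card_bij (fun p _ => p.swap) ?_ ?_ ?_
  · intro p hp
    rw [mem_bd] at hp ⊢
    obtain ⟨h1, h2, h3⟩ := hp
    refine ⟨by simpa using h2, by simpa using h1, ?_⟩
    simpa [dist1, Nat.dist_comm] using h3
  · intro p _ p' _ h
    exact Prod.swap_injective h
  · intro p hp
    rw [mem_bd] at hp
    obtain ⟨h1, h2, h3⟩ := hp
    refine ⟨p.swap, ?_, by simp⟩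
    rw [mem_bd]
    refine ⟨by simpa using h2, by simpa using h1, ?_⟩
    simpa [dist1, Nat.dist_comm] using h3

end path

section union

variable {ι : Type} [Fintype ι] [DecidableEq ι] {q : ℕ} [NeZero q]

lemma entropy_biUnion_le {Ω : (ι → Fin q) → ℂ} (hΩ : nsq Ω = 1) {β : Type} [DecidableEq β]
    (G : Finset β) (B : β → Finset ι)
    (hd : ∀ g ∈ G, ∀ g' ∈ G, g ≠ g' → Disjoint (B g) (B g')) :
    entropy Ω (G.biUnion B) ≤ ∑ g ∈ G, entropy Ω (B g) := by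
  induction G using Finset.induction_on with
  | empty =>
    have h1 := entropy_le_log hΩ (∅ : Finset ι)
    have h2 : dimT (∅ : Finset ι) q = 1 := by
      simp [dimT]
    rw [h2] at h1
    simpa using h1
  | insert a s ha ih =>
    rw [Finset.biUnion_insert, Finset.sum_insert ha]
    have h1 : Disjoint (B a) (s.biUnion B) := by
      rw [Finset.disjoint_biUnion_right]
      intro g hg
      refine hd a (Finset.mem_insert_self _ _) g (Finset.mem_insert_of_mem hg) ?_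
      rintro rfl
      exact ha hg
    have h2 := entropy_union_le hΩ h1
    have h3 := ih (fun g hg g' hg' hne => hd g (Finset.mem_insert_of_mem hg) g'
      (Finset.mem_insert_of_mem hg') hne)
    linarith

lemma entropy_le_card_log {Ω : (ι → Fin q) → ℂ} (hΩ : nsq Ω = 1) (A : Finset ι) :
    entropy Ω A ≤ (A.card : ℝ) * Real.log q := by
  have h1 := entropy_le_log hΩ A
  have h2 : dimT A q = q ^ A.card := by
    simp [dimT]
  rw [h2, Nat.cast_pow, Real.log_pow] at h1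
  exact h1

/-- The abstract packing bound: a family of disjoint boxes in `A` with entropy deficit `κ`. -/
theorem entropy_packing {Ω : (ι → Fin q) → ℂ} (hΩ : nsq Ω = 1) {β : Type} [DecidableEq β]
    (A : Finset ι) (G : Finset β) (B : β → Finset ι) (κ : ℝ)
    (hd : ∀ g ∈ G, ∀ g' ∈ G, g ≠ g' → Disjoint (B g) (B g'))
    (hsub : ∀ g ∈ G, B g ⊆ A)
    (hdef : ∀ g ∈ G, entropy Ω (B g) ≤ ((B g).card : ℝ) * Real.log q - κ) :
    entropy Ω A ≤ (A.card : ℝ) * Real.log q - κ * G.card := by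
  have hU : G.biUnion B ⊆ A := Finset.biUnion_subset.2 hsub
  have h1 : entropy Ω (G.biUnion B) ≤ ∑ g ∈ G, (((B g).card : ℝ) * Real.log q - κ) :=
    (entropy_biUnion_le hΩ G B hd).trans (Finset.sum_le_sum hdef)
  have h2 := entropy_le_card_log hΩ (A \ G.biUnion B)
  have h3 := entropy_union_le hΩ (Finset.disjoint_sdiff (s := G.biUnion B) (t := A))
  rw [Finset.union_sdiff_of_subset hU] at h3
  have h4 : A.card = (A \ G.biUnion B).card + (G.biUnion B).card :=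
    (Finset.card_sdiff_add_card_eq_card hU).symm
  have h5 : (G.biUnion B).card = ∑ g ∈ G, (B g).card := Finset.card_biUnion hd
  have h6 : ∑ g ∈ G, (((B g).card : ℝ) * Real.log q - κ)
      = ((G.biUnion B).card : ℝ) * Real.log q - κ * G.card := by
    rw [h5, Finset.sum_sub_distrib, Finset.sum_const, nsmul_eq_mul, ← Finset.sum_mul]
    push_cast
    ring
  rw [h6] at h1
  have h7 : (A.card : ℝ) = ((A \ G.biUnion B).card : ℝ) + ((G.biUnion B).card : ℝ) := by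
    exact_mod_cast h4
  rw [h7]
  linarith

end union

end Vale.Agent.P356
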