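import Vale.Agent.P356.Core

open Finset Matrix

set_option linter.unusedSectionVars false

namespace Vale.Agent.P356

section subadd

open scoped ComplexOrder

variable {ι : Type} [Fintype ι] [DecidableEq ι] {q : ℕ} [NeZero q]

lemma reduced_eq_sum (Ω : (ι → Fin q) → ℂ) (A : Finset ι) (a a' : A → Fin q) :
    reducedDensity Ω A a a' =
      ∑ σ : ι → Fin q, if res A σ = a then Ω σ * star (Ω (glue A a' (resc A σ))) else 0 := by
  rw [sum_cfg A]
  simp only [res_glue, resc_glue]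
  rw [Finset.sum_eq_single a]
  · simp [reducedDensity]
  · intro c _ hne
    simp [hne]
  · intro h
    exact absurd (mem_univ a) h

/-- Join of configurations on two sets covering `A`. -/
def join {A A₁ A₂ : Finset ι} (hA : ∀ x, x ∈ A → x ∈ A₁ ∨ x ∈ A₂) (a₁ : A₁ → Fin q) (a₂ : A₂ → Fin q) :
    A → Fin q :=
  fun x => if h : x.1 ∈ A₁ then a₁ ⟨x.1, h⟩ else a₂ ⟨x.1, (hA x.1 x.2).resolve_left h⟩

lemma res_eq_join_iff {A A₁ A₂ : Finset ι} (hA : ∀ x, x ∈ A → x ∈ A₁ ∨ x ∈ A₂)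
    (hA₁ : ∀ x, x ∈ A₁ → x ∈ A) (hA₂ : ∀ x, x ∈ A₂ → x ∈ A) (hd : Disjoint A₁ A₂)
    (σ : ι → Fin q) (a₁ : A₁ → Fin q) (a₂ : A₂ → Fin q) :
    res A σ = join hA a₁ a₂ ↔ res A₁ σ = a₁ ∧ res A₂ σ = a₂ := by
  constructor
  · intro h
    constructor
    · funext x
      have := congrFun h ⟨x.1, hA₁ x.1 x.2⟩
      simpa [res, join, x.2] using this
    · funext x
      have := congrFun h ⟨x.1, hA₂ x.1 x.2⟩
      have hx : x.1 ∉ A₁ := fun h' => Finset.disjoint_left.1 hd h' x.2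
      simpa [res, join, hx] using this
  · rintro ⟨rfl, rfl⟩
    funext x
    by_cases hx : x.1 ∈ A₁
    · simp [res, join, hx]
    · simp [res, join, hx]

/-- The marginal of a reduced density matrix is a reduced density matrix. -/
lemma reduced_marginal {A A₁ A₂ : Finset ι} (hA : ∀ x, x ∈ A → x ∈ A₁ ∨ x ∈ A₂)
    (hA₁ : ∀ x, x ∈ A₁ → x ∈ A) (hA₂ : ∀ x, x ∈ A₂ → x ∈ A) (hd : Disjoint A₁ A₂)
    (Ω : (ι → Fin q) → ℂ) (a₁ a₁' : A₁ → Fin q) :
    ∑ a₂, reducedDensity Ω A (join hA a₁ a₂) (join hA a₁' a₂) = reducedDensity Ω A₁ a₁ a₁' := by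
  simp_rw [reduced_eq_sum, res_eq_join_iff hA hA₁ hA₂ hd]
  rw [Finset.sum_comm]
  refine Finset.sum_congr rfl (fun σ _ => ?_)
  by_cases h1 : res A₁ σ = a₁
  · rw [if_pos h1, Finset.sum_eq_single (res A₂ σ)]
    · rw [if_pos ⟨h1, rfl⟩]
      congr 3
      funext x
      by_cases hx : x ∈ A
      · by_cases hx1 : x ∈ A₁
        · rw [glue_apply_mem _ _ _ hx, glue_apply_mem _ _ _ hx1]
          simp [join, hx1]
        · rw [glue_apply_mem _ _ _ hx, glue_apply_not_mem _ _ _ hx1]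
          simp [join, hx1, res, resc]
      · have hx1 : x ∉ A₁ := fun h => hx (hA₁ x h)
        rw [glue_apply_not_mem _ _ _ hx, glue_apply_not_mem _ _ _ hx1]
        rfl
    · intro a₂ _ hne
      rw [if_neg]
      rintro ⟨-, h2⟩
      exact hne h2.symm
    · intro h
      exact absurd (mem_univ _) h
  · rw [if_neg h1]
    refine Finset.sum_eq_zero (fun a₂ _ => ?_)
    rw [if_neg]
    rintro ⟨h, -⟩
    exact h1 h

/-- The equivalence between configurations on `A` and pairs of configurations on a partition. -/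
def partEquiv {A A₁ A₂ : Finset ι} (hA : ∀ x, x ∈ A → x ∈ A₁ ∨ x ∈ A₂)
    (hA₁ : ∀ x, x ∈ A₁ → x ∈ A) (hA₂ : ∀ x, x ∈ A₂ → x ∈ A) (hd : Disjoint A₁ A₂) :
    (A → Fin q) ≃ (A₁ → Fin q) × (A₂ → Fin q) where
  toFun := fun a => (fun x => a ⟨x.1, hA₁ x.1 x.2⟩, fun x => a ⟨x.1, hA₂ x.1 x.2⟩)
  invFun := fun p => join hA p.1 p.2
  left_inv := by
    intro a
    funext x
    by_cases hx : x.1 ∈ A₁ <;> simp [join, hx]
  right_inv := by
    rintro ⟨a₁, a₂⟩
    ext x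
    · simp [join]
    · have hx : x.1 ∉ A₁ := fun h => Finset.disjoint_left.1 hd h x.2
      simp [join, hx]

lemma marg₁_reduced {A A₁ A₂ : Finset ι} (hA : ∀ x, x ∈ A → x ∈ A₁ ∨ x ∈ A₂)
    (hA₁ : ∀ x, x ∈ A₁ → x ∈ A) (hA₂ : ∀ x, x ∈ A₂ → x ∈ A) (hd : Disjoint A₁ A₂)
    (Ω : (ι → Fin q) → ℂ) :
    marg₁ ((reducedDensity Ω A).submatrix (partEquiv hA hA₁ hA₂ hd).symm (partEquiv hA hA₁ hA₂ hd).symm)
      = reducedDensity Ω A₁ := by
  ext a₁ a₁'
  exact reduced_marginal hA hA₁ hA₂ hd Ω a₁ a₁'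

lemma marg₂_reduced {A A₁ A₂ : Finset ι} (hA : ∀ x, x ∈ A → x ∈ A₁ ∨ x ∈ A₂)
    (hA₁ : ∀ x, x ∈ A₁ → x ∈ A) (hA₂ : ∀ x, x ∈ A₂ → x ∈ A) (hd : Disjoint A₁ A₂)
    (Ω : (ι → Fin q) → ℂ) :
    marg₂ ((reducedDensity Ω A).submatrix (partEquiv hA hA₁ hA₂ hd).symm (partEquiv hA hA₁ hA₂ hd).symm)
      = reducedDensity Ω A₂ := by
  have hA' : ∀ x, x ∈ A → x ∈ A₂ ∨ x ∈ A₁ := fun x hx => (hA x hx).symm
  have hjoin : ∀ (a₁ : A₁ → Fin q) (a₂ : A₂ → Fin q), join hA a₁ a₂ = join hA' a₂ a₁ := by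
    intro a₁ a₂
    funext x
    by_cases hx : x.1 ∈ A₁
    · have hx2 : x.1 ∉ A₂ := fun h => Finset.disjoint_left.1 hd hx h
      simp [join, hx, hx2]
    · have hx2 : x.1 ∈ A₂ := (hA x.1 x.2).resolve_left hx
      simp [join, hx, hx2]
  ext a₂ a₂'
  have := reduced_marginal hA' hA₂ hA₁ hd.symm Ω a₂ a₂'
  rw [← this]
  refine Finset.sum_congr rfl (fun a₁ _ => ?_)
  show reducedDensity Ω A (join hA a₁ a₂) (join hA a₁ a₂') = _
  rw [hjoin, hjoin]

/-- Subadditivity of the entanglement entropy for a partition. -/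
theorem entropy_le_of_partition {Ω : (ι → Fin q) → ℂ} (hΩ : nsq Ω = 1) {A A₁ A₂ : Finset ι}
    (hA : ∀ x, x ∈ A → x ∈ A₁ ∨ x ∈ A₂)
    (hA₁ : ∀ x, x ∈ A₁ → x ∈ A) (hA₂ : ∀ x, x ∈ A₂ → x ∈ A) (hd : Disjoint A₁ A₂) :
    entropy Ω A ≤ entropy Ω A₁ + entropy Ω A₂ := by
  have hρH : (reducedDensity Ω A).IsHermitian := reducedDensity_isHermitian Ω A
  have hρ'H : ((reducedDensity Ω A).submatrix (partEquiv hA hA₁ hA₂ hd).symm
      (partEquiv hA hA₁ hA₂ hd).symm).IsHermitian := hρH.submatrix _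
  have hcp : ((reducedDensity Ω A).submatrix (partEquiv hA hA₁ hA₂ hd).symm
      (partEquiv hA hA₁ hA₂ hd).symm).charpoly = (reducedDensity Ω A).charpoly :=
    Matrix.charpoly_reindex (partEquiv hA hA₁ hA₂ hd) (reducedDensity Ω A)
  have hpos : ∀ i, 0 ≤ hρ'H.eigenvalues i :=
    ((reducedDensity_posSemidef Ω A).submatrix _).eigenvalues_nonneg
  have hsum : ∑ i, hρ'H.eigenvalues i = 1 := by
    have := sum_eigenvalues_eq_of_charpoly hρ'H hρH hcp id
    simp only [id] at this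
    rw [this]
    exact reduced_eig_sum hΩ A
  have hS : entropy Ω A = ∑ i, Real.negMulLog (hρ'H.eigenvalues i) :=
    (sum_eigenvalues_eq_of_charpoly hρ'H hρH hcp Real.negMulLog).symm
  rw [hS]
  have hm1 := marg₁_reduced hA hA₁ hA₂ hd Ω
  have hm2 := marg₂_reduced hA hA₁ hA₂ hd Ω
  have hh₁ : (marg₁ ((reducedDensity Ω A).submatrix (partEquiv hA hA₁ hA₂ hd).symm
      (partEquiv hA hA₁ hA₂ hd).symm)).IsHermitian := by
    rw [hm1]
    exact reducedDensity_isHermitian Ω A₁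
  have hh₂ : (marg₂ ((reducedDensity Ω A).submatrix (partEquiv hA hA₁ hA₂ hd).symm
      (partEquiv hA hA₁ hA₂ hd).symm)).IsHermitian := by
    rw [hm2]
    exact reducedDensity_isHermitian Ω A₂
  have hp1 : (marg₁ ((reducedDensity Ω A).submatrix (partEquiv hA hA₁ hA₂ hd).symm
      (partEquiv hA hA₁ hA₂ hd).symm)).PosSemidef := by
    rw [hm1]
    exact reducedDensity_posSemidef Ω A₁
  have hp2 : (marg₂ ((reducedDensity Ω A).submatrix (partEquiv hA hA₁ hA₂ hd).symm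
      (partEquiv hA hA₁ hA₂ hd).symm)).PosSemidef := by
    rw [hm2]
    exact reducedDensity_posSemidef Ω A₂
  have hsa := subadditivity hρ'H hpos hsum hh₁ hh₂ hp1.eigenvalues_nonneg hp2.eigenvalues_nonneg
  have e1 : ∑ i, Real.negMulLog (hh₁.eigenvalues i) = entropy Ω A₁ :=
    sum_eigenvalues_eq_of_charpoly hh₁ (reducedDensity_isHermitian Ω A₁) (by rw [hm1]) _
  have e2 : ∑ i, Real.negMulLog (hh₂.eigenvalues i) = entropy Ω A₂ :=
    sum_eigenvalues_eq_of_charpoly hh₂ (reducedDensity_isHermitian Ω A₂) (by rw [hm2]) _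
  rw [← e1, ← e2]
  exact hsa

theorem entropy_union_le {Ω : (ι → Fin q) → ℂ} (hΩ : nsq Ω = 1) {A₁ A₂ : Finset ι}
    (hd : Disjoint A₁ A₂) :
    entropy Ω (A₁ ∪ A₂) ≤ entropy Ω A₁ + entropy Ω A₂ :=
  entropy_le_of_partition hΩ (fun x hx => Finset.mem_union.1 hx)
    (fun x hx => Finset.mem_union_left _ hx) (fun x hx => Finset.mem_union_right _ hx) hd

/-- A polynomial and its multiple by a power of `X` have the same sum over roots,
if the function vanishes at zero. -/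
lemma sum_roots_X_pow_mul (P : Polynomial ℂ) (hP : P ≠ 0) (k : ℕ) (f : ℂ → ℝ) (hf : f 0 = 0) :
    (((Polynomial.X ^ k * P).roots).map f).sum = ((P.roots).map f).sum := by
  have hne : (Polynomial.X : Polynomial ℂ) ^ k * P ≠ 0 :=
    mul_ne_zero (pow_ne_zero _ Polynomial.X_ne_zero) hP
  rw [Polynomial.roots_mul hne, Polynomial.roots_pow, Polynomial.roots_X, Multiset.map_add,
    Multiset.sum_add, Multiset.map_nsmul, Multiset.sum_nsmul]
  simp [hf]

/-- The entanglement entropy of a vector is the same for a set and its complement. -/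
theorem entropy_compl (Ω : (ι → Fin q) → ℂ) (A : Finset ι) : entropy Ω Aᶜ = entropy Ω A := by
  let e : {x // x ∉ A} ≃ ↥Aᶜ := Equiv.subtypeEquivRight (fun x => by simp)
  let f : ({x // x ∉ A} → Fin q) ≃ (↥Aᶜ → Fin q) := Equiv.arrowCongr e (Equiv.refl _)
  let e' : ↥A ≃ {x // x ∉ Aᶜ} := Equiv.subtypeEquivRight (fun x => by simp)
  let g : (A → Fin q) ≃ ({x // x ∉ Aᶜ} → Fin q) := Equiv.arrowCongr e' (Equiv.refl _)
  let N : Matrix (A → Fin q) (↥Aᶜ → Fin q) ℂ := fun a c => Ω (glue A a (f.symm c))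
  have h1 : reducedDensity Ω A = N * Nᴴ := by
    ext a a'
    simp only [reducedDensity, Matrix.mul_apply, Matrix.conjTranspose_apply]
    rw [← Equiv.sum_comp f.symm]
  have hglue : ∀ (c : ↥Aᶜ → Fin q) (a : A → Fin q), glue Aᶜ c (g a) = glue A a (f.symm c) := by
    intro c a
    funext x
    by_cases hx : x ∈ A
    · have hx' : x ∉ Aᶜ := by simpa using hx
      rw [glue_apply_not_mem _ _ _ hx', glue_apply_mem _ _ _ hx]
      rfl
    · have hx' : x ∈ Aᶜ := by simpa using hx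
      rw [glue_apply_mem _ _ _ hx', glue_apply_not_mem _ _ _ hx]
      rfl
  have h2 : reducedDensity Ω Aᶜ = (Nᴴ * N)ᵀ := by
    ext c c'
    simp only [reducedDensity, Matrix.transpose_apply, Matrix.mul_apply, Matrix.conjTranspose_apply]
    rw [← Equiv.sum_comp g]
    refine Finset.sum_congr rfl (fun a _ => ?_)
    rw [hglue, hglue, mul_comm]
  have hcp1 : (reducedDensity Ω Aᶜ).charpoly = (Nᴴ * N).charpoly := by
    rw [h2, Matrix.charpoly_transpose]
  have hcp2 : (reducedDensity Ω A).charpoly = (N * Nᴴ).charpoly := by rw [h1]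
  have hrect := Matrix.charpoly_mul_comm' N Nᴴ
  have hf : (fun z : ℂ => Real.negMulLog z.re) 0 = 0 := by simp
  unfold entropy
  rw [sum_eigenvalues_eq_roots, sum_eigenvalues_eq_roots, hcp1, hcp2]
  rw [← sum_roots_X_pow_mul _ (Matrix.charpoly_monic _).ne_zero (Fintype.card (A → Fin q)) _ hf,
    ← hrect, sum_roots_X_pow_mul _ (Matrix.charpoly_monic _).ne_zero _ _ hf]

end subadd

end Vale.Agent.P356
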